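import Crest.Agent.R162.O.Pt

/-! Row 162, block O: the two Lyapunov jets (deterministic). -/

set_option autoImplicit false

open scoped ENNReal NNReal Topology
open Set Filter MeasureTheory Metric

noncomputable section
namespace Crest.Agent.R162.O

variable {κ : ℝ}

/-- smooth version of `wt 1` -/
def chi (ε v : ℝ) : ℝ := v * ε / (v ^ 2 + ε ^ 2)

theorem chi_nonneg {ε v : ℝ} (hε : 0 < ε) (hv : 0 ≤ v) : 0 ≤ chi ε v := by
  unfold chi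
  positivity

theorem chi_le_one {ε v : ℝ} (hε : 0 < ε) : chi ε v ≤ 1 := by
  rw [chi, div_le_one (by positivity)]
  nlinarith [sq_nonneg (v - ε), sq_nonneg v, sq_nonneg ε]

theorem chi_le_wt {ε v : ℝ} (hε : 0 < ε) (hv : 0 ≤ v) : chi ε v ≤ wt 1 ε v := by
  rw [wt, Real.rpow_one, Real.rpow_one, chi]
  rcases hv.eq_or_lt with rfl | hv
  · simp
  refine le_min ?_ ?_
  · rw [div_le_div_iff₀ (by positivity) hε]
    nlinarith [pow_pos hv 3]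
  · rw [div_le_div_iff₀ (by positivity) hv]
    nlinarith [pow_pos hε 3]

theorem wt_le_chi {ε v : ℝ} (hε : 0 < ε) (hv : 0 ≤ v) : wt 1 ε v ≤ 2 * chi ε v := by
  rw [wt, Real.rpow_one, Real.rpow_one, chi]
  rcases hv.eq_or_lt with rfl | hv
  · simp
  rw [← mul_div_assoc]
  rcases le_total v ε with h | h
  · refine (min_le_left _ _).trans ?_
    rw [div_le_div_iff₀ hε (by positivity)]
    nlinarith [mul_nonneg hv.le (sub_nonneg.2 (pow_le_pow_left₀ hv.le h 2))]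
  · refine (min_le_right _ _).trans ?_
    rw [div_le_div_iff₀ hv (by positivity)]
    nlinarith [mul_nonneg hε.le (sub_nonneg.2 (pow_le_pow_left₀ hε.le h 2))]

theorem le_chi {ε v : ℝ} (hε : 0 < ε) (h1 : ε ≤ v) (h3 : v ≤ 3 * ε) : 3 / 10 ≤ chi ε v := by
  rw [chi, le_div_iff₀ (by positivity)]
  nlinarith [mul_nonneg (sub_nonneg.2 h1) (sub_nonneg.2 h3)]

theorem chi_cd {ε : ℝ} (hε : 0 < ε) : ContDiffOn ℝ 1 (chi ε) (Ioi 0) := by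
  refine ContDiff.contDiffOn ?_
  unfold chi
  exact ContDiff.div (by fun_prop) (by fun_prop) fun v => by positivity

theorem chi_deriv {ε v : ℝ} (hε : 0 < ε) (hv : 0 ≤ v) : -chi ε v ≤ v * deriv (chi ε) v := by
  have h0 : v ^ 2 + ε ^ 2 ≠ 0 := by positivity
  have h : HasDerivAt (chi ε) ((1 * ε * (v ^ 2 + ε ^ 2) - v * ε * (2 * v)) / (v ^ 2 + ε ^ 2) ^ 2) v := by
    have h1 : HasDerivAt (fun w : ℝ => w ^ 2 + ε ^ 2) (2 * v) v := by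
      simpa using (hasDerivAt_pow 2 v).add_const (ε ^ 2)
    exact ((hasDerivAt_id v).mul_const ε).div h1 h0
  rw [h.deriv, ← sub_nonneg, chi]
  have : v * ((1 * ε * (v ^ 2 + ε ^ 2) - v * ε * (2 * v)) / (v ^ 2 + ε ^ 2) ^ 2) - -(v * ε / (v ^ 2 + ε ^ 2)) =
      2 * v * ε ^ 3 / (v ^ 2 + ε ^ 2) ^ 2 := by
    field_simp
    ring
  rw [this]
  positivity

theorem atan_cd (ε : ℝ) : ContDiffOn ℝ 1 (fun v => Real.arctan (v / ε)) (Ioi 0) :=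
  (Real.contDiff_arctan.comp (contDiff_id.div_const ε)).contDiffOn

theorem atan_deriv {ε : ℝ} (hε : 0 < ε) (v : ℝ) : v * deriv (fun v => Real.arctan (v / ε)) v = chi ε v := by
  have h : HasDerivAt (fun v => Real.arctan (v / ε)) (1 / (1 + (v / ε) ^ 2) * (1 / ε)) v :=
    ((hasDerivAt_id v).div_const ε).arctan
  rw [h.deriv, chi]
  field_simp
  ring

theorem gain_ineq {c₀ C₀ γ : ℝ} (hc : 0 < c₀) (hC : 0 < C₀) (hγ : 0 < γ) :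
    ∃ C₂, 0 ≤ C₂ ∧ ∀ S, 0 < S → C₀ * S ^ 2 ≤ c₀ / 2 + 4 * C₂ * S ^ 2 * S ^ γ := by
  set σ := √(c₀ / (2 * C₀)) with hσ
  have hσ0 : 0 < σ := Real.sqrt_pos.2 (by positivity)
  have hσ2 : σ ^ 2 = c₀ / (2 * C₀) := Real.sq_sqrt (by positivity)
  have hp : 0 < σ ^ γ := Real.rpow_pos_of_pos hσ0 _
  refine ⟨C₀ / (4 * σ ^ γ), by positivity, fun S hS => ?_⟩
  have hq : 0 < S ^ γ := Real.rpow_pos_of_pos hS _
  rcases le_total S σ with h | h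
  · have h1 : S ^ 2 ≤ c₀ / (2 * C₀) := hσ2 ▸ pow_le_pow_left₀ hS.le h 2
    rw [le_div_iff₀ (by positivity)] at h1
    have : 0 ≤ 4 * (C₀ / (4 * σ ^ γ)) * S ^ 2 * S ^ γ := by positivity
    linarith
  · have h1 : σ ^ γ ≤ S ^ γ := Real.rpow_le_rpow hσ0.le h hγ.le
    have h2 : C₀ * S ^ 2 = 4 * (C₀ / (4 * σ ^ γ)) * S ^ 2 * σ ^ γ := by field_simp
    have h3 : 4 * (C₀ / (4 * σ ^ γ)) * S ^ 2 * σ ^ γ ≤ 4 * (C₀ / (4 * σ ^ γ)) * S ^ 2 * S ^ γ := by gcongr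
    linarith

/-- `K = V_g χ(Υ) + C₂ G arctan (Υ/ε)` (two `jV`s).  `|v χ'| ≤ χ`, `v arctan' = χ`; with `c₀ = κ g (a-g)/2`,
`C₀ = c₀ + κ (a-g)/2 + 4`, `σ² = c₀ / (2 C₀)`, `4 C₂ σ^(a-g) = C₀`: `C₀ S² ≤ c₀/2 + 4 C₂ S² S^(a-g)`. -/
theorem exists_gain (hκ : 0 < κ) (hκ8 : κ < 8) {g : ℝ} (hg : 0 < g) (hga : g < aa κ) :
    ∃ c C : ℝ, 0 < c ∧ 0 ≤ C ∧ ∀ (z : ℂ) (ε : ℝ), 0 < ε → ∃ K : Jet ℝ, PJ K z ∧ ∀ t ω, Alive ω z t →
      Vg κ g ω z t * chi ε (Up ω z t) ≤ K.val t ω ∧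
      K.val t ω ≤ Vg κ g ω z t * chi ε (Up ω z t) + C * Gr κ ω z t ∧
      K.gen κ t ω ≤ -(c * (Vg κ g ω z t * chi ε (Up ω z t)) / ‖Zc ω z t‖ ^ 2) := by
  have hγ : 0 < aa κ - g := sub_pos.2 hga
  set c₀ := κ / 2 * g * (aa κ - g) with hc₀
  have hc : 0 < c₀ := by positivity
  obtain ⟨C₂, hC₂, hS⟩ := gain_ineq hc (C₀ := c₀ + κ / 2 * (aa κ - g) + 4) (by positivity) hγ
  refine ⟨c₀ / 2, 2 * C₂, by positivity, by positivity, fun z ε hε => ⟨(jV κ g (chi ε) (fun _ => 1) z).add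
    (jc C₂ (jV κ (aa κ) (fun v => Real.arctan (v / ε)) (fun _ => 1) z)),
    (pj_V hg.le (chi_cd hε) contDiffOn_const).add
      ((pj_V (aa_pos hκ hκ8).le (atan_cd ε) contDiffOn_const).jc _), fun t ω hal => ?_⟩⟩
  have hU := hal.up_pos
  have hG : 0 ≤ Vg κ (aa κ) ω z t := Vg_nonneg _
  have hV : 0 ≤ Vg κ g ω z t := Vg_nonneg _
  have a1 : 0 ≤ Real.arctan (Up ω z t / ε) := Real.arctan_nonneg.2 (by positivity)
  have a2 : Real.arctan (Up ω z t / ε) ≤ 2 := by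
    linarith [Real.arctan_lt_pi_div_two (Up ω z t / ε), Real.pi_le_four]
  rw [Jet.val_add, jc_val, jV_val, jV_val, Gr]
  refine ⟨?_, ?_, ?_⟩
  · have : 0 ≤ C₂ * (Real.arctan (Up ω z t / ε) * 1 * Vg κ (aa κ) ω z t) := by positivity
    linarith
  · have : C₂ * (Real.arctan (Up ω z t / ε) * 1 * Vg κ (aa κ) ω z t) ≤ C₂ * (2 * 1 * Vg κ (aa κ) ω z t) := by
      gcongr
    linarith
  · have e : Vg κ (aa κ) ω z t = Vg κ g ω z t * Sc ω z t ^ (aa κ - g) := by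
      rw [← Vg_add hal, add_sub_cancel]
    rw [Jet.gen_add, jc_gen, jV_gen hκ hal, jV_gen hκ hal, atan_deriv hε, e]
    have b1 := chi_deriv hε hU.le
    have b2 := chi_nonneg hε hU.le
    have b3 := mul_le_mul_of_nonneg_left (hS _ hal.sc_pos) b2
    have b4 := mul_le_mul_of_nonneg_left b1 (sq_nonneg (Sc ω z t))
    have hW : 0 ≤ Vg κ g ω z t / ‖Zc ω z t‖ ^ 2 := by positivity
    simp only [deriv_const', mul_zero, zero_mul, sub_zero, mul_one, sub_self, add_zero]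
    set W := Vg κ g ω z t / ‖Zc ω z t‖ ^ 2 with hWd
    set χ := chi ε (Up ω z t)
    set D := Up ω z t * deriv (chi ε) (Up ω z t)
    set S := Sc ω z t
    have e1 : Vg κ g ω z t * S ^ (aa κ - g) / ‖Zc ω z t‖ ^ 2 = W * S ^ (aa κ - g) := by rw [hWd]; ring
    have e2 : c₀ / 2 * (Vg κ g ω z t * χ) / ‖Zc ω z t‖ ^ 2 = W * (c₀ / 2 * χ) := by rw [hWd]; ring
    rw [e1, e2]
    have b5 : -4 * S ^ 2 * D + χ * (-(κ / 2) * g * (aa κ - g) * (1 - S ^ 2) + κ / 2 * (aa κ - g) * S ^ 2) +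
        C₂ * (S ^ (aa κ - g) * (-4 * S ^ 2 * χ)) ≤ -(c₀ / 2 * χ) := by
      rw [hc₀] at b3 ⊢
      linarith
    have b6 := mul_le_mul_of_nonneg_left b5 hW
    linarith

/-- `H = 3 Y^γ G + Y^γ V_{a-γ}` (two `jV`s); `Y^γ V_{a-γ} = G |Z|^γ` as `Y = S |Z|`; for `S ≥ 1/2`: `G ≥ V_{a-γ}/2`. -/
theorem exists_exit_jet (hκ : 0 < κ) (hκ8 : κ < 8) {γ : ℝ} (hγ : 0 < γ) (hγ1 : γ ≤ 1) (hγa : γ ≤ aa κ) (z : ℂ) :
    ∃ K : Jet ℝ, PJ K z ∧ ∀ t ω, Alive ω z t →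
      Gr κ ω z t * ‖Zc ω z t‖ ^ γ ≤ K.val t ω ∧ K.val t ω ≤ 4 * Yc ω z t ^ γ * Up ω z t ^ (-bb κ) ∧
      K.gen κ t ω ≤ -(γ * (Gr κ ω z t * ‖Zc ω z t‖ ^ γ) / ‖Zc ω z t‖ ^ 2) := by
  have cd : ContDiffOn ℝ 1 (fun v : ℝ => v ^ γ) (Ioi 0) := fun v hv =>
    (Real.contDiffAt_rpow_const_of_ne (ne_of_gt hv)).contDiffWithinAt
  refine ⟨(jc 3 (jV κ (aa κ) (fun _ => 1) (fun v => v ^ γ) z)).add (jV κ (aa κ - γ) (fun _ => 1) (fun v => v ^ γ) z),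
    ((pj_V (aa_pos hκ hκ8).le contDiffOn_const cd).jc _).add (pj_V (sub_nonneg.2 hγa) contDiffOn_const cd),
    fun t ω hal => ?_⟩
  have hY : 0 < Yc ω z t := alive_iff.1 hal
  have hZ := norm_Zc_pos hal
  have hS := hal.sc_pos
  have hS1 : Sc ω z t ≤ 1 := Sc_mem.2
  have hV : 0 ≤ Vg κ (aa κ - γ) ω z t := Vg_nonneg _
  have e : Vg κ (aa κ) ω z t = Vg κ (aa κ - γ) ω z t * Sc ω z t ^ γ := by
    rw [← Vg_add hal, sub_add_cancel]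
  have eY : Yc ω z t ^ γ = Sc ω z t ^ γ * ‖Zc ω z t‖ ^ γ := by
    rw [← Real.mul_rpow hS.le hZ.le, Sc, div_mul_cancel₀ _ hZ.ne']
  have eG : Gr κ ω z t * ‖Zc ω z t‖ ^ γ = Yc ω z t ^ γ * Vg κ (aa κ - γ) ω z t := by
    rw [Gr, e, eY]; ring
  have hYγ : 0 < Yc ω z t ^ γ := Real.rpow_pos_of_pos hY _
  have hSγ : 0 < Sc ω z t ^ γ := Real.rpow_pos_of_pos hS _
  have hSγ1 : Sc ω z t ^ γ ≤ 1 := Real.rpow_le_one hS.le hS1 hγ.le
  have hd : Yc ω z t * deriv (fun v : ℝ => v ^ γ) (Yc ω z t) = γ * Yc ω z t ^ γ := by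
    rw [(Real.hasDerivAt_rpow_const (Or.inl hY.ne')).deriv, Real.rpow_sub_one hY.ne']
    field_simp
  rw [Jet.val_add, jc_val, jV_val, jV_val, eG, e]
  refine ⟨?_, ?_, ?_⟩
  · have : 0 ≤ 3 * (1 * Yc ω z t ^ γ * (Vg κ (aa κ - γ) ω z t * Sc ω z t ^ γ)) := by positivity
    linarith
  · have a1 : Vg κ (aa κ - γ) ω z t ≤ Up ω z t ^ (-bb κ) :=
      mul_le_of_le_one_right (Real.rpow_nonneg Up_nonneg _) (Real.rpow_le_one hS.le hS1 (sub_nonneg.2 hγa))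
    have a2 : Vg κ (aa κ - γ) ω z t * Sc ω z t ^ γ ≤ Up ω z t ^ (-bb κ) :=
      (mul_le_of_le_one_right hV hSγ1).trans a1
    have a3 := mul_le_mul_of_nonneg_left a1 hYγ.le
    have a4 := mul_le_mul_of_nonneg_left a2 hYγ.le
    linarith
  · rw [Jet.gen_add, jc_gen, jV_gen hκ hal, jV_gen hκ hal, hd, e]
    simp only [deriv_const', mul_zero, zero_mul, mul_one, one_mul, sub_self, add_zero, sub_sub_cancel]
    have hW : 0 ≤ Vg κ (aa κ - γ) ω z t / ‖Zc ω z t‖ ^ 2 * (γ * Yc ω z t ^ γ) := by positivity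
    set S := Sc ω z t
    have b1 : 0 ≤ κ / 2 * (aa κ - γ) * (1 - S ^ 2) := by
      have : S ^ 2 ≤ 1 := pow_le_one₀ hS.le hS1
      have : 0 ≤ aa κ - γ := sub_nonneg.2 hγa
      have : 0 ≤ 1 - S ^ 2 := by linarith
      positivity
    have b2 : κ / 2 * S ^ 2 ≤ 4 * S ^ 2 := by gcongr; linarith
    have b3 : -6 * S ^ γ - 2 + 4 * S ^ 2 ≤ -1 := by
      rcases le_total S (1 / 2) with h | h
      · nlinarith
      · have c1 : S ^ (1 : ℝ) ≤ S ^ γ := Real.rpow_le_rpow_of_exponent_ge hS hS1 hγ1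
        rw [Real.rpow_one] at c1
        nlinarith
    have b4 : -6 * S ^ γ - 2 - κ / 2 * (aa κ - γ) * (1 - S ^ 2) + κ / 2 * S ^ 2 ≤ -1 := by linarith
    have b5 := mul_le_mul_of_nonneg_left b4 hW
    refine le_trans (le_of_eq ?_) (b5.trans (le_of_eq ?_))
    · ring
    · ring

end Crest.Agent.R162.O
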