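import Crest.Agent.R162.O.Zero
import Crest.Agent.R162.O.Gain

/-! Row 162, block O: the Green's function at the exit time, and the part of the killing rate with small `S`. -/

set_option autoImplicit false

open scoped ENNReal NNReal Topology
open Set Filter MeasureTheory Metric

noncomputable section
namespace Crest.Agent.R162.O

variable {κ : ℝ} {μ : Measure Path}

/-- exit time of the driving function from `[-C, C]`, capped at `C²` -/
def ex (C : ℝ) (ω : Path) : ℝ := hitX (fun t ω => |ω t - ω 0|) C 0 (C ^ 2) ω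

theorem stop_ex (C : ℝ) : Stop (ex C) := by
  refine stop_hitX (σ := fun _ => 0) (Stop.const le_rfl) (fun _ => sq_nonneg C) ?_ fun t ω ω' ht h => ?_
  · exact Continuous.continuousOn (by fun_prop)
  · simp only [h t le_rfl, h 0 ht]

theorem ex_le (C : ℝ) (ω : Path) : ex C ω ≤ C ^ 2 := by
  exact (hitX_mem (sq_nonneg C)).2

theorem abs_le_of_le_ex {C t : ℝ} (hC : 0 < C) {ω : Path} (ht : t ∈ Icc 0 (ex C ω)) : |ω t - ω 0| ≤ C := by
  rcases ht.2.lt_or_eq with h | h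
  · exact (lt_of_lt_hitX (X := fun t ω => |ω t - ω 0|) ht.1 h).le
  · rw [h]
    exact hitX_le (X := fun t ω => |ω t - ω 0|) (sq_nonneg C) (Continuous.continuousOn (by fun_prop))
      (by simpa using hC.le)

theorem ex_cases (C : ℝ) (ω : Path) : ex C ω = C ^ 2 ∨ C ≤ |ω (ex C ω) - ω 0| := by
  exact le_hitX (X := fun t ω => |ω t - ω 0|) (sq_nonneg C) (Continuous.continuousOn (by fun_prop))

theorem im_rpow_le (hκ : 0 < κ) (hκ8 : κ < 8) {v : ℝ} (hv : 1 / 2 ≤ v) : v ^ (-bb κ) ≤ 2 := by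
  have h1 : v ^ (-bb κ) ≤ (1 / 2 : ℝ) ^ (-bb κ) :=
    Real.rpow_le_rpow_of_nonpos (by norm_num) hv (neg_nonpos.2 (bb_pos hκ8).le)
  have h2 : (1 / 2 : ℝ) ^ (-bb κ) ≤ (1 / 2 : ℝ) ^ (-1 : ℝ) :=
    Real.rpow_le_rpow_of_exponent_ge (by norm_num) (by norm_num) (neg_le_neg (bb_le_one hκ))
  rw [Real.rpow_neg_one] at h2
  norm_num at h2 h1 ⊢
  linarith

theorem jGr_val (z : ℂ) (t : ℝ) (ω : Path) :
    (jV κ (aa κ) (fun _ => 1) (fun _ => 1) z).val t ω = Gr κ ω z t := by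
  rw [jV_val, Gr]; ring

theorem jGr_gen (hκ : 0 < κ) {z : ℂ} {t : ℝ} {ω : Path} (h : Alive ω z t) :
    (jV κ (aa κ) (fun _ => 1) (fun _ => 1) z).gen κ t ω = 0 := by
  rw [jV_gen hκ h]; simp

theorem exit_aux (hκ : 0 < κ) (hκ8 : κ < 8) (hμ : Wie κ μ) {γ C : ℝ} (hγ : 0 < γ) (hγ1 : γ ≤ 1) (hγa : γ ≤ aa κ)
    (hC : 3 ≤ C) {z : ℂ} (hz1 : ‖z‖ = 1) (hz2 : 1 / 2 ≤ z.im) :
    ∫⁻ ω, ENNReal.ofReal (Gr κ ω z (ex C ω)) ∂μ ≤ ENNReal.ofReal (8 * (8820 / (γ * C ^ γ))) := by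
  have hC0 : 0 < C := by linarith
  have hz : z ∈ HH := by show 0 < z.im; linarith
  have hCγ : 0 < C ^ γ := Real.rpow_pos_of_pos hC0 _
  obtain ⟨H, pH, hH⟩ := exists_exit_jet hκ hκ8 hγ hγ1 hγa z
  set α := 8820 / (γ * C ^ γ) with hα
  have hα0 : 0 < α := by positivity
  set K : Jet ℝ := (jc α H).add (jc (9 / C ^ 2) ((jN z).mul (jV κ (aa κ) (fun _ => 1) (fun _ => 1) z))) with hK
  have pK : PJ K z := (pH.jc _).add
    ((pj_N.mul (pj_V (aa_pos hκ hκ8).le contDiffOn_const contDiffOn_const)).jc _)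
  have Kval : ∀ t ω, K.val t ω = α * H.val t ω + 9 / C ^ 2 * ((t + ((gt ω z t).re - z.re) ^ 2) * Gr κ ω z t) := by
    intro t ω
    simp only [hK, Jet.val_add, Jet.val_mul, jc_val, jN_val, jGr_val]
  have Kgen : ∀ t ω, Alive ω z t → K.gen κ t ω = α * H.gen κ t ω +
      9 / C ^ 2 * ((1 + 2 * ((gt ω z t).re - z.re) * (2 / Zc ω z t).re) * Gr κ ω z t) := by
    intro t ω hal
    have e1 : ((jN z).mul (jV κ (aa κ) (fun _ => 1) (fun _ => 1) z)).gen κ t ω = _ := gen_fv_mul _ _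
    simp only [hK, Jet.gen_add, jc_gen, e1, jGr_val, jGr_gen hκ hal, mul_zero, add_zero]
  have hG : ∀ t ω, 0 ≤ Gr κ ω z t := fun t ω => Vg_nonneg _
  have hH0 : ∀ t ω, Alive ω z t → 0 ≤ H.val t ω := fun t ω hal =>
    (mul_nonneg (hG t ω) (Real.rpow_nonneg (norm_nonneg _) _)).trans (hH t ω hal).1
  rw [← hμ.EE_zero (ω := 0) (fun _ _ => rfl)]
  refine pt_super_val hκ hμ pK (after_zero (stop_ex C) (ex_le C)) ?_ ?_ ?_ ?_ ?_
  · intro ω _ t ht hal
    rw [Kval]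
    have := hH0 t ω hal
    have := hG t ω
    have := ht.1
    positivity
  · intro ω ha t ht hal
    have h0 : ω 0 = 0 := ha 0 le_rfl
    have hosc : osc t ω ≤ C := osc_le hC0.le fun r hr => abs_le_of_le_ex hC0 ⟨hr.1, hr.2.trans ht.2.le⟩
    have hsq : √t ≤ C := Real.sqrt_le_iff.2 ⟨hC0.le, ht.2.le.trans (ex_le C ω)⟩
    have hg : ‖gt ω z t - z‖ ≤ 12 * C := hal.norm_gt_sub.trans (by linarith)
    have hu : |(gt ω z t).re - z.re| ≤ 12 * C := by
      rw [← Complex.sub_re]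
      exact (Complex.abs_re_le_norm _).trans hg
    have hω : |ω t| ≤ C := by simpa [h0] using abs_le_of_le_ex hC0 ⟨ht.1.le, ht.2.le⟩
    have hZ0 := norm_Zc_pos hal
    have hZ : ‖Zc ω z t‖ ≤ 14 * C := by
      have e : Zc ω z t = (gt ω z t - z) + z - ω t := by rw [Zc]; ring
      have a1 := norm_sub_le (gt ω z t - z + z) (ω t : ℂ)
      have a2 := norm_add_le (gt ω z t - z) z
      rw [Complex.norm_real, Real.norm_eq_abs] at a1
      rw [e]
      linarith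
    set Z := ‖Zc ω z t‖ with hZd
    have hre : |(2 / Zc ω z t).re| ≤ 2 / Z := by
      refine (Complex.abs_re_le_norm _).trans (le_of_eq ?_)
      rw [norm_div]
      simp [hZd]
    have b1 : 1 + 2 * ((gt ω z t).re - z.re) * (2 / Zc ω z t).re ≤ 1 + 2 * (12 * C) * (2 / Z) := by
      have : ((gt ω z t).re - z.re) * (2 / Zc ω z t).re ≤ (12 * C) * (2 / Z) := by
        refine (le_abs_self _).trans ?_
        rw [abs_mul]
        gcongr
      linarith
    have hr1 : Z / (14 * C) ≤ 1 := (div_le_one (by positivity)).2 hZ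
    have b2 : Z / (14 * C) ≤ Z ^ γ / C ^ γ := by
      rw [← Real.div_rpow hZ0.le hC0.le]
      calc Z / (14 * C) = (Z / (14 * C)) ^ (1 : ℝ) := (Real.rpow_one _).symm
        _ ≤ (Z / (14 * C)) ^ γ := Real.rpow_le_rpow_of_exponent_ge (by positivity) hr1 hγ1
        _ ≤ (Z / C) ^ γ := by gcongr; linarith
    have b3 : 9 / C ^ 2 * (1 + 2 * (12 * C) * (2 / Z)) ≤ α * γ * Z ^ γ / Z ^ 2 := by
      have e1 : α * γ * Z ^ γ / Z ^ 2 = 8820 * (Z ^ γ / C ^ γ) / Z ^ 2 := by rw [hα]; field_simp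
      have e2 : 9 / C ^ 2 * (1 + 2 * (12 * C) * (2 / Z)) = (9 * (Z + 48 * C) / C * (Z / C)) / Z ^ 2 := by
        field_simp
        ring
      rw [e1, e2]
      refine div_le_div_of_nonneg_right ?_ (by positivity)
      have e3 : 9 * (Z + 48 * C) / C ≤ 630 := by rw [div_le_iff₀ hC0]; linarith
      have e4 : Z / C = 14 * (Z / (14 * C)) := by field_simp
      calc 9 * (Z + 48 * C) / C * (Z / C) ≤ 630 * (Z / C) := by gcongr
        _ = 8820 * (Z / (14 * C)) := by rw [e4]; ring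
        _ ≤ _ := by gcongr
    rw [Kgen t ω hal]
    have c1 := mul_le_mul_of_nonneg_left (hH t ω hal).2.2 hα0.le
    have c2 : 9 / C ^ 2 * ((1 + 2 * ((gt ω z t).re - z.re) * (2 / Zc ω z t).re) * Gr κ ω z t) ≤
        9 / C ^ 2 * ((1 + 2 * (12 * C) * (2 / Z)) * Gr κ ω z t) := by
      have := hG t ω
      gcongr
    have c3 := mul_le_mul_of_nonneg_right b3 (hG t ω)
    have c4 : α * -(γ * (Gr κ ω z t * Z ^ γ) / Z ^ 2) = -(α * γ * Z ^ γ / Z ^ 2 * Gr κ ω z t) := by ring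
    linarith
  · intro ω ha hal
    have h0 : ω 0 = 0 := ha 0 le_rfl
    rw [Kval]
    have hσ0 := (stop_ex C).nonneg ω
    have hc := ex_cases C ω
    generalize ex C ω = t at *
    have a1 := mul_nonneg hα0.le (hH0 t ω hal)
    have a2 := hG t ω
    have a3 : ∀ N, C ^ 2 / 9 ≤ N → Gr κ ω z t ≤ 9 / C ^ 2 * (N * Gr κ ω z t) := fun N hN =>
      calc Gr κ ω z t = 9 / C ^ 2 * (C ^ 2 / 9 * Gr κ ω z t) := by field_simp
        _ ≤ _ := by gcongr
    rcases hc with hc | hc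
    · have := a3 (t + ((gt ω z t).re - z.re) ^ 2) (by nlinarith [sq_nonneg ((gt ω z t).re - z.re), sq_nonneg C])
      linarith
    · rcases le_or_gt (C / 3) ‖Zc ω z t‖ with hZ | hZ
      · have b1 : (1 / 3 : ℝ) ≤ ‖Zc ω z t‖ ^ γ / C ^ γ := by
          rw [← Real.div_rpow (norm_nonneg _) hC0.le]
          calc (1 / 3 : ℝ) = (1 / 3 : ℝ) ^ (1 : ℝ) := (Real.rpow_one _).symm
            _ ≤ (1 / 3 : ℝ) ^ γ := Real.rpow_le_rpow_of_exponent_ge (by norm_num) (by norm_num) hγ1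
            _ ≤ (‖Zc ω z t‖ / C) ^ γ := by
              refine Real.rpow_le_rpow (by norm_num) ?_ hγ.le
              rw [le_div_iff₀ hC0]
              linarith
        have b2 : 1 ≤ α * ‖Zc ω z t‖ ^ γ := by
          have e : α * ‖Zc ω z t‖ ^ γ = 8820 / γ * (‖Zc ω z t‖ ^ γ / C ^ γ) := by rw [hα]; field_simp
          have e2 : 8820 ≤ 8820 / γ := by rw [le_div_iff₀ hγ]; linarith
          rw [e]
          nlinarith
        have b3 := mul_le_mul_of_nonneg_left (hH t ω hal).1 hα0.le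
        have b4 := mul_le_mul_of_nonneg_left b2 a2
        have b5 : 0 ≤ 9 / C ^ 2 * ((t + ((gt ω z t).re - z.re) ^ 2) * Gr κ ω z t) := by positivity
        linarith
      · have b1 : |(Zc ω z t).re| ≤ ‖Zc ω z t‖ := Complex.abs_re_le_norm _
        have b2 : |z.re| ≤ 1 := hz1 ▸ Complex.abs_re_le_norm z
        have b3 : (Zc ω z t).re = (gt ω z t).re - ω t := by simp [Zc]
        rw [h0, sub_zero] at hc
        have b4 : C / 3 ≤ |(gt ω z t).re - z.re| := by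
          have e : ω t = ((gt ω z t).re - z.re) + z.re - (Zc ω z t).re := by rw [b3]; ring
          have c1 := abs_sub ((gt ω z t).re - z.re + z.re) (Zc ω z t).re
          have c2 := abs_add_le ((gt ω z t).re - z.re) z.re
          rw [← e] at c1
          linarith
        have b5 : (C / 3) ^ 2 ≤ ((gt ω z t).re - z.re) ^ 2 := by
          rw [← sq_abs ((gt ω z t).re - z.re)]
          gcongr
        have := a3 (t + ((gt ω z t).re - z.re) ^ 2) (by linarith)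
        linarith
  · intro ω _ hal
    exact (Vg_dead (aa_pos hκ hκ8) hal).le
  · intro hal
    have e1 : Yc 0 z 0 = z.im := by rw [Yc, gt_zero hz]
    have a1 := (hH 0 0 hal).2.1
    rw [e1, Up_zero hz] at a1
    have a2 : z.im ≤ 1 := (le_abs_self _).trans (hz1 ▸ Complex.abs_im_le_norm z)
    have a3 : z.im ^ γ ≤ 1 := Real.rpow_le_one (by linarith) a2 hγ.le
    have a4 := im_rpow_le hκ hκ8 hz2
    have a5 : 4 * z.im ^ γ * z.im ^ (-bb κ) ≤ 4 * 1 * 2 := by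
      have : 0 ≤ z.im ^ (-bb κ) := Real.rpow_nonneg (by linarith) _
      gcongr
    rw [Kval, gt_zero hz]
    have a6 : α * H.val 0 0 ≤ α * 8 := by gcongr; linarith
    simp only [sub_self, ne_eq, OfNat.ofNat_ne_zero, not_false_eq_true, zero_pow, add_zero, zero_mul, mul_zero]
    linarith

/-- `pt_super_val` with `Λ H + (t + u²) G`, `u = Re g - Re z`, `H` from `exists_exit_jet` (`γ = min a 1`).  Up to `ex C`:
`|u| ≤ 12 C` (`norm_gt_sub`), `|Z| ≤ R = 14 C`, so `1 + 4|u|/|Z| ≤ 5 R^(2-γ) |Z|^(γ-2)`; `Λ γ = 5 R^(2-γ)`.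
At `ex C`: `t + u² ≥ C²/9` or `|Z| ≥ C/3`. -/
theorem exit_small (hκ : 0 < κ) (hκ8 : κ < 8) (hμ : Wie κ μ) {e : ℝ} (he : 0 < e) :
    ∃ C : ℝ, 1 ≤ C ∧ ∀ z : ℂ, ‖z‖ = 1 → 1 / 2 ≤ z.im →
      ∫⁻ ω, ENNReal.ofReal (Gr κ ω z (ex C ω)) ∂μ ≤ ENNReal.ofReal e := by
  have ha := aa_pos hκ hκ8
  set γ := min (aa κ) 1 with hγ
  have hγ0 : 0 < γ := lt_min ha one_pos
  set C := max 3 ((70560 / (γ * e)) ^ γ⁻¹) with hC
  have h3 : 3 ≤ C := le_max_left _ _
  refine ⟨C, by linarith, fun z hz1 hz2 => ?_⟩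
  refine (exit_aux hκ hκ8 hμ hγ0 (min_le_right _ _) (min_le_left _ _) h3 hz1 hz2).trans
    (ENNReal.ofReal_le_ofReal ?_)
  have h1 : 70560 / (γ * e) ≤ C ^ γ := by
    rw [← Real.rpow_inv_rpow (x := 70560 / (γ * e)) (by positivity) hγ0.ne']
    exact Real.rpow_le_rpow (by positivity) (le_max_right _ _) hγ0.le
  have h2 : 0 < C ^ γ := Real.rpow_pos_of_pos (by linarith) _
  rw [div_le_iff₀ (by positivity)] at h1
  rw [← mul_div_assoc, div_le_iff₀ (by positivity)]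
  linarith

/-- `densF - dens ≤ 4 L (10/3) (2 s₀)^(a-g) V_g χ_y(Υ) / |Z|²`; `pt_super_gain` with a multiple of the jet of `exists_gain` -/
theorem small_S (hκ : 0 < κ) (hκ8 : κ < 8) (hμ : Wie κ μ) {e : ℝ} (he : 0 < e) :
    ∃ s₀ : ℝ, 0 < s₀ ∧ ∀ (z : ℂ) (y T : ℝ) (σ : Path → ℝ), 1 / 2 ≤ z.im → 0 < y → Stop σ → (∀ ω, σ ω ≤ T) →
      ∫⁻ ω, ∫⁻ t in Ioc 0 (σ ω), ENNReal.ofReal (densF κ y ω z t - dens κ s₀ y ω z t) ∂volume ∂μ ≤
        ENNReal.ofReal e := by
  have ha := aa_pos hκ hκ8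
  obtain ⟨c, C, hc, hC, hK⟩ := exists_gain hκ hκ8 (g := aa κ / 2) (by linarith) (by linarith)
  obtain ⟨L, hL0, hL⟩ := exists_st_bound
  set θ := e / (2 * (1 + C)) with hθ
  have hθ0 : 0 < θ := by positivity
  set δ := θ * c * (3 / 10) / (4 * L) with hδ
  have hδ0 : 0 < δ := by positivity
  have hs : 0 < δ ^ (aa κ / 2)⁻¹ := Real.rpow_pos_of_pos hδ0 _
  refine ⟨δ ^ (aa κ / 2)⁻¹ / 2, by positivity, fun z y T σ hz2 hy hσ hT => ?_⟩
  have hz : z ∈ HH := by show 0 < z.im; linarith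
  obtain ⟨K, pK, hK⟩ := hK z y hy
  have hV : ∀ t ω, 0 ≤ Vg κ (aa κ / 2) ω z t * chi y (Up ω z t) := fun t ω =>
    mul_nonneg (Vg_nonneg _) (chi_nonneg hy Up_nonneg)
  rw [← hμ.EE_zero (ω := 0) (fun _ _ => rfl)]
  refine pt_super_gain hκ hμ (pK.jc θ) (after_zero hσ hT)
    (h := fun t ω => densF κ y ω z t - dens κ (δ ^ (aa κ / 2)⁻¹ / 2) y ω z t) ?_ ?_ ?_ ?_
  · intro ω _ t _ hal
    rw [jc_val]
    exact mul_nonneg hθ0.le ((hV t ω).trans (hK t ω hal).1)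
  · intro ω _ t _ hal
    rw [jc_gen]
    have hZ : 0 < ‖Zc ω z t‖ ^ 2 := pow_pos (norm_Zc_pos hal) 2
    have a1 := mul_le_mul_of_nonneg_left (hK t ω hal).2.2 hθ0.le
    have a2 : 0 ≤ θ * (c * (Vg κ (aa κ / 2) ω z t * chi y (Up ω z t)) / ‖Zc ω z t‖ ^ 2) := by
      have := hV t ω
      positivity
    refine ⟨by linarith, le_trans ?_ (show θ * (c * (Vg κ (aa κ / 2) ω z t * chi y (Up ω z t)) / ‖Zc ω z t‖ ^ 2) ≤ _
      by linarith)⟩
    have hSc := Sc_mem (ω := ω) (z := z) (t := t)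
    rcases le_or_gt (δ ^ (aa κ / 2)⁻¹) (Sc ω z t) with hS | hS
    · have : Real.smoothTransition (Sc ω z t / (δ ^ (aa κ / 2)⁻¹ / 2) - 1) = 1 := by
        refine Real.smoothTransition.one_of_one_le ?_
        rw [le_sub_iff_add_le, le_div_iff₀ (by positivity)]
        linarith
      simp only [densF, dens, this, mul_one, sub_self]
      exact a2
    refine le_trans (sub_le_self _ dens_nonneg) ?_
    by_cases hd : deriv Real.smoothTransition (Real.log (Up ω z t / y)) = 0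
    · simp only [densF, hd, mul_zero, zero_mul, zero_div]
      exact a2
    have hU := hal.up_pos
    have b1 : ¬(Real.log (Up ω z t / y) ≤ 0 ∨ 1 ≤ Real.log (Up ω z t / y)) := fun h => hd ((hL _).2.2 h)
    rw [not_or, not_le, not_le] at b1
    have b2 : y ≤ Up ω z t := by
      have := (Real.log_pos_iff (div_pos hU hy).le).1 b1.1
      rw [lt_div_iff₀ hy] at this
      linarith
    have b3 : Up ω z t ≤ 3 * y := by
      have := (Real.log_lt_iff_lt_exp (div_pos hU hy)).1 b1.2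
      rw [div_lt_iff₀ hy] at this
      have := Real.exp_one_lt_d9
      nlinarith
    have b4 := le_chi hy b2 b3
    have b5 : Gr κ ω z t = Vg κ (aa κ / 2) ω z t * Sc ω z t ^ (aa κ / 2) := by
      rw [← Vg_add hal, add_halves, Gr]
    have b6 : Sc ω z t ^ (aa κ / 2) ≤ δ := by
      rw [← Real.rpow_inv_rpow hδ0.le (y := aa κ / 2) (by positivity)]
      exact Real.rpow_le_rpow hSc.1 hS.le (by positivity)
    have b7 : Sc ω z t ^ 2 ≤ 1 := pow_le_one₀ hSc.1 hSc.2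
    have b8 := Vg_nonneg (κ := κ) (ω := ω) (z := z) (t := t) (aa κ / 2)
    have b9 := (hL (Real.log (Up ω z t / y))).1
    have b10 := (hL (Real.log (Up ω z t / y))).2.1
    have b11 : 0 ≤ Sc ω z t ^ (aa κ / 2) := Real.rpow_nonneg hSc.1 _
    rw [densF, ← mul_div_assoc, b5]
    refine div_le_div_of_nonneg_right ?_ hZ.le
    calc 4 * deriv Real.smoothTransition (Real.log (Up ω z t / y)) *
          (Vg κ (aa κ / 2) ω z t * Sc ω z t ^ (aa κ / 2)) * Sc ω z t ^ 2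
        ≤ 4 * L * (Vg κ (aa κ / 2) ω z t * δ) * 1 := by gcongr
      _ = θ * (c * (Vg κ (aa κ / 2) ω z t * (3 / 10))) := by rw [hδ]; field_simp
      _ ≤ _ := by gcongr
  · intro ω _ t _ hal
    have : Gr κ ω z t = 0 := Vg_dead ha hal
    simp [densF, dens, this]
  · intro hal
    rw [jc_val]
    have a1 := (hK 0 0 hal).2.1
    have a2 := im_rpow_le hκ hκ8 hz2
    have a3 : Vg κ (aa κ / 2) 0 z 0 ≤ 2 := by
      rw [Vg_zero hz rfl]
      exact (V0_le hz (by linarith)).trans a2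
    have a4 : Gr κ 0 z 0 ≤ 2 := by
      rw [Gr, Vg_zero hz rfl]
      exact (V0_le hz ha.le).trans a2
    have a5 : Vg κ (aa κ / 2) 0 z 0 * chi y (Up 0 z 0) ≤ 2 :=
      (mul_le_of_le_one_right (Vg_nonneg _) (chi_le_one hy)).trans a3
    have a6 : C * Gr κ 0 z 0 ≤ C * 2 := by gcongr
    calc θ * K.val 0 0 ≤ θ * (2 * (1 + C)) := by gcongr; linarith
      _ = e := by rw [hθ]; field_simp

end Crest.Agent.R162.O
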