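import Crest.Agent.R162.O.Sub
import Crest.Agent.R162.O.Exit

/-! Row 162, block O: O4. -/

set_option autoImplicit false

open scoped ENNReal NNReal Topology
open Set Filter MeasureTheory Metric

noncomputable section
namespace Crest.Agent.R162.O

variable {κ : ℝ} {μ : Measure Path}

theorem meas_nz (s₀ y : ℝ) (z : ℂ) {τ : Path → ℝ} (hτ : Measurable τ) :
    Measurable fun ω => nz κ s₀ y ω z (Ioc 0 (τ ω)) :=
  measurable_nz.comp (show Measurable fun ω : Path => ((y, ω, z, 0, τ ω) : ℝ × Path × ℂ × ℝ × ℝ) by fun_prop)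

/-- mass produced before the exit time: `sub_ge`, `exit_small`, `small_S` -/
theorem low_ex (hκ : 0 < κ) (hκ8 : κ < 8) (hμ : Wie κ μ) :
    ∃ s₀ c C : ℝ, 0 < s₀ ∧ 0 < c ∧ 1 ≤ C ∧ ∀ (z : ℂ) (y : ℝ), ‖z‖ = 1 → 1 / 2 ≤ z.im → 0 < y → 3 * y ≤ z.im →
      ENNReal.ofReal c ≤ ∫⁻ ω, nz κ s₀ y ω z (Ioc 0 (ex C ω)) ∂μ := by
  have ha := aa_pos hκ hκ8
  set v := (1 / 2 : ℝ) ^ aa κ with hv
  have hv0 : 0 < v := by positivity
  obtain ⟨C, hC, h1⟩ := exit_small hκ hκ8 hμ (e := v / 4) (by positivity)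
  obtain ⟨s₀, hs₀, h2⟩ := small_S hκ hκ8 hμ (e := v / 4) (by positivity)
  refine ⟨s₀, v / 2, C, hs₀, by positivity, hC, fun z y hz1 hz2 hy h3 => ?_⟩
  have a1 := h1 z hz1 hz2
  have a2 := h2 z y _ _ hz2 hy (stop_ex C) (ex_le C)
  have a3 := sub_ge hκ hκ8 hμ hy h3 (stop_ex C) (ex_le C)
  have a4 : v ≤ V0 κ (aa κ) z := by
    have b1 : z.im ≤ 1 := (le_abs_self _).trans (hz1 ▸ Complex.abs_im_le_norm z)
    have b2 : 1 ≤ z.im ^ (-bb κ) :=
      Real.one_le_rpow_of_pos_of_le_one_of_nonpos (by linarith) b1 (neg_nonpos.2 (bb_pos hκ8).le)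
    have b3 : v ≤ z.im ^ aa κ := Real.rpow_le_rpow (by norm_num) hz2 ha.le
    rw [V0, hz1, div_one]
    nlinarith
  have m1 : Measurable fun ω => ENNReal.ofReal (Gr κ ω z (ex C ω)) :=
    ((measurable_Vg (aa κ)).comp (measurable_id.prodMk (stop_ex C).meas)).ennreal_ofReal
  have m2 := meas_nz (κ := κ) s₀ y z (stop_ex C).meas
  have a5 : ∀ ω, ∫⁻ t in Ioc 0 (ex C ω), ENNReal.ofReal (densF κ y ω z t) ≤ nz κ s₀ y ω z (Ioc 0 (ex C ω)) +
      ∫⁻ t in Ioc 0 (ex C ω), ENNReal.ofReal (densF κ y ω z t - dens κ s₀ y ω z t) := by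
    intro ω
    have m3 : Measurable fun t => ENNReal.ofReal (dens κ s₀ y ω z t) :=
      (measurable_dens.comp (show Measurable fun t : ℝ => ((y, ω, z, t) : ℝ × Path × ℂ × ℝ) by
        fun_prop)).ennreal_ofReal
    rw [nz, ← lintegral_add_left m3]
    refine lintegral_mono fun t => le_trans (le_of_eq ?_) ENNReal.ofReal_add_le
    congr 1
    ring
  have a6 := (ENNReal.ofReal_le_ofReal a4).trans (a3.trans (lintegral_mono fun ω => add_le_add le_rfl (a5 ω)))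
  rw [lintegral_add_left m1, lintegral_add_left m2] at a6
  have a7 := a6.trans (add_le_add a1 (add_le_add le_rfl a2))
  have e1 : ENNReal.ofReal v = ENNReal.ofReal (v / 2) + ENNReal.ofReal (v / 2) := by
    rw [← ENNReal.ofReal_add (by positivity) (by positivity), add_halves]
  have e2 : ENNReal.ofReal (v / 2) = ENNReal.ofReal (v / 4) + ENNReal.ofReal (v / 4) := by
    rw [← ENNReal.ofReal_add (by positivity) (by positivity)]
    congr 1
    ring
  rw [e1, add_left_comm, ← e2] at a7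
  exact (ENNReal.add_le_add_iff_right ENNReal.ofReal_ne_top).1 a7

/-- strong Markov property at `ex C` (`lintegral_eq_EE`, `Agr.nz`, `EE_sh`, `osc_tail`) -/
theorem window (hκ : 0 < κ) (hμ : Wie κ μ) {C : ℝ} (hC : 1 ≤ C) : ∃ C' : ℝ, 1 ≤ C' ∧ ∀ (s₀ y : ℝ) (z : ℂ),
    ∫⁻ ω, nz κ s₀ y ω z (Ioc 0 (ex C ω)) ∂μ ≤ 2 * ∫⁻ ω in {ω | osc C' ω ≤ C'}, nz κ s₀ y ω z (Ioc 0 C') ∂μ := by
  have := hμ.prob
  set C' := C ^ 2 + 2 * C + 56 * κ with hC'
  have hC0 : 0 < C := by linarith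
  have h1 : C ^ 2 ≤ C' := by rw [hC']; linarith
  have h2 : 2 * C ≤ C' := by rw [hC']; nlinarith
  have h3 : 56 * κ ≤ C' := by rw [hC']; nlinarith
  have h0 : 0 < C' := by linarith
  refine ⟨C', by linarith, fun s₀ y z => ?_⟩
  set E : Set Path := {ω | C' - C ≤ osc C' ω}ᶜ with hE
  have mE : MeasurableSet E := (isClosed_le continuous_const (continuous_osc C')).measurableSet.compl
  have hE2 : 2⁻¹ ≤ μ E := by
    have a1 := hμ.osc_tail hκ h0 (l := C' - C) (by linarith)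
    have a2 : 4 * Real.exp (-(C' - C) ^ 2 / (2 * κ * C')) ≤ 2⁻¹ := by
      have b1 : 7 ≤ (C' - C) ^ 2 / (2 * κ * C') := by
        rw [le_div_iff₀ (by positivity)]
        nlinarith
      have b2 := Real.add_one_le_exp ((C' - C) ^ 2 / (2 * κ * C'))
      rw [neg_div, Real.exp_neg]
      have b3 : (Real.exp ((C' - C) ^ 2 / (2 * κ * C')))⁻¹ ≤ 8⁻¹ := inv_anti₀ (by norm_num) (by linarith)
      linarith
    have a3 := a1.trans (ENNReal.ofReal_le_ofReal a2)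
    rw [ENNReal.ofReal_inv_of_pos two_pos, ENNReal.ofReal_ofNat] at a3
    rw [hE, prob_compl_eq_one_sub (isClosed_le continuous_const (continuous_osc C')).measurableSet,
      ← ENNReal.one_sub_inv_two]
    exact tsub_le_tsub_left a3 1
  set F : Path → ℝ≥0∞ := fun ω => nz κ s₀ y ω z (Ioc 0 (ex C ω)) * E.indicator 1 (sh (ex C ω) ω) with hF
  have mF : Measurable F := (meas_nz s₀ y z (stop_ex C).meas).mul ((measurable_one.indicator mE).comp
    (continuous_sh.measurable.comp ((stop_ex C).meas.prodMk measurable_id)))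
  have a1 : ∀ ω, nz κ s₀ y ω z (Ioc 0 (ex C ω)) ≤ 2 * EE μ ω (ex C ω) F := by
    intro ω
    have b1 : EE μ ω (ex C ω) F = ∫⁻ ω', nz κ s₀ y ω z (Ioc 0 (ex C ω)) *
        E.indicator 1 (sh (ex C ω) (spl (ex C ω) ω ω')) ∂μ := by
      refine lintegral_congr fun ω' => ?_
      have ha := agr_spl (ex C ω) ω ω'
      simp only [hF]
      rw [(stop_ex C).agr _ _ ha, ha.nz measurableSet_Ioc Ioc_subset_Iic_self]
    have b2 := hμ.EE_sh ω (ex C ω) (E.indicator 1)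
    rw [lintegral_indicator_one mE] at b2
    rw [b1]
    refine le_trans ?_ (mul_le_mul_right (lintegral_const_mul_le _ _) 2)
    rw [EE] at b2
    rw [b2]
    calc nz κ s₀ y ω z (Ioc 0 (ex C ω)) = 2 * (nz κ s₀ y ω z (Ioc 0 (ex C ω)) * 2⁻¹) := by
          rw [mul_left_comm, ENNReal.mul_inv_cancel two_ne_zero ENNReal.ofNat_ne_top, mul_one]
      _ ≤ _ := by gcongr
  have mS : MeasurableSet {ω | osc C' ω ≤ C'} := (isClosed_le (continuous_osc C') continuous_const).measurableSet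
  refine (lintegral_mono a1).trans ?_
  rw [lintegral_const_mul' _ _ ENNReal.ofNat_ne_top, ← hμ.lintegral_eq_EE (stop_ex C) mF, ← lintegral_indicator mS]
  gcongr with ω
  simp only [hF]
  by_cases hω : sh (ex C ω) ω ∈ E
  swap
  · rw [indicator_of_notMem hω, mul_zero]
    exact zero_le
  have hσ0 := (stop_ex C).nonneg ω
  have hω' : osc C' (sh (ex C ω) ω) < C' - C := not_le.1 hω
  have b1 : ω ∈ {ω | osc C' ω ≤ C'} := by
    refine osc_le h0.le fun t ht => ?_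
    rcases le_total t (ex C ω) with h | h
    · exact (abs_le_of_le_ex hC0 ⟨ht.1, h⟩).trans (by linarith)
    · have c1 := abs_le_osc (T := C') (t := t - ex C ω) (sh (ex C ω) ω) ⟨by linarith, by linarith [ht.2]⟩
      have c2 := abs_le_of_le_ex hC0 (ω := ω) ⟨hσ0, le_rfl⟩
      have c3 : sh (ex C ω) ω (t - ex C ω) - sh (ex C ω) ω 0 = ω t - ω (ex C ω) := by
        simp [sh, max_eq_left (sub_nonneg.2 h)]
      rw [c3] at c1
      have c4 := abs_sub_le (ω t) (ω (ex C ω)) (ω 0)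
      linarith
  rw [indicator_of_mem hω, indicator_of_mem b1, Pi.one_apply, mul_one]
  exact lintegral_mono_set (Ioc_subset_Ioc_right ((ex_le C ω).trans h1))

/-- Brownian scaling (`nz_scl`, `Wie.scale`) -/
theorem low_scale (hμ : Wie κ μ) {C c y : ℝ} (hC : 0 ≤ C) (hc : 0 < c) (hy : 0 < y) (s₀ : ℝ) (z : ℂ) :
    ∫⁻ ω in {ω | osc C ω ≤ C}, nz κ s₀ (y / c) ω (z / c) (Ioc 0 C) ∂μ ≤ ENNReal.ofReal (c ^ bb κ) *
      ∫⁻ ω in {ω | osc (C * c ^ 2) ω ≤ C * c}, nz κ s₀ y ω z (Ioc 0 (C * c ^ 2)) ∂μ := by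
  have mS : MeasurableSet {ω | osc C ω ≤ C} := (isClosed_le (continuous_osc _) continuous_const).measurableSet
  have mS' : MeasurableSet {ω | osc (C * c ^ 2) ω ≤ C * c} :=
    (isClosed_le (continuous_osc _) continuous_const).measurableSet
  rw [← lintegral_indicator mS, ← lintegral_indicator mS', ← lintegral_const_mul' _ _ ENNReal.ofReal_ne_top,
    ← (hμ.scale c hc).lintegral_comp ((meas_nz s₀ (y / c) (z / c) measurable_const).indicator mS)]
  refine lintegral_mono fun ω => ?_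
  by_cases hω : scl c ω ∈ {ω | osc C ω ≤ C}
  swap
  · simp only [indicator_of_notMem hω]
    exact zero_le
  have b1 : ω ∈ {ω | osc (C * c ^ 2) ω ≤ C * c} := by
    refine osc_le (by positivity) fun t ht => ?_
    have c1 := abs_le_osc (T := C) (t := t / c ^ 2) (scl c ω)
      ⟨div_nonneg ht.1 (by positivity), (div_le_iff₀ (by positivity)).2 ht.2⟩
    have c2 : scl c ω (t / c ^ 2) - scl c ω 0 = (ω t - ω 0) / c := by
      have : c ^ 2 * (t / c ^ 2) = t := by field_simp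
      simp [scl, this, sub_div]
    rw [c2, abs_div, abs_of_pos hc, div_le_iff₀ hc] at c1
    have c3 : osc C (scl c ω) ≤ C := hω
    exact c1.trans (by gcongr)
  simp only [indicator_of_mem hω, indicator_of_mem b1]
  rw [nz_scl hy hc, mul_zero, mul_comm (c ^ 2)]

theorem low (hκ : 0 < κ) (hκ8 : κ < 8) (hμ : Wie κ μ) :
    ∃ s₀ c C : ℝ, 0 < s₀ ∧ 0 < c ∧ 1 ≤ C ∧ ∀ (z : ℂ) (y : ℝ), ‖z‖ ≤ 2 * z.im → 0 < y → 3 * y ≤ z.im →
      ENNReal.ofReal (c * z.im ^ (-bb κ)) ≤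
        ∫⁻ ω in {ω | osc (C * ‖z‖ ^ 2) ω ≤ C * ‖z‖}, nz κ s₀ y ω z (Ioc 0 (C * ‖z‖ ^ 2)) ∂μ := by
  obtain ⟨s₀, c, C, hs₀, hc, hC, h1⟩ := low_ex hκ hκ8 hμ
  obtain ⟨C', hC', h2⟩ := window hκ hμ hC
  refine ⟨s₀, c / 4, C', hs₀, by positivity, hC', fun z y hz hy h3 => ?_⟩
  have hi : 0 < z.im := by linarith
  have hn : 0 < ‖z‖ := hi.trans_le ((le_abs_self _).trans (Complex.abs_im_le_norm z))
  have e1 : (z / (‖z‖ : ℂ)).im = z.im / ‖z‖ := Complex.div_ofReal_im _ _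
  have a1 := h1 (z / (‖z‖ : ℂ)) (y / ‖z‖) (by simp [hn.ne']) (by rw [e1, le_div_iff₀ hn]; linarith) (by positivity)
    (by rw [e1, ← mul_div_assoc]; gcongr)
  have a2 := (a1.trans (h2 _ _ _)).trans (mul_le_mul_right (low_scale hμ (by linarith) hn hy s₀ z) 2)
  have hp : 0 < z.im ^ (-bb κ) := Real.rpow_pos_of_pos hi _
  have a3 : z.im ^ (-bb κ) / 4 * (2 * ‖z‖ ^ bb κ) ≤ 1 := by
    have b1 : ‖z‖ ^ bb κ ≤ (2 * z.im) ^ bb κ := Real.rpow_le_rpow hn.le hz (bb_pos hκ8).le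
    have b2 : (2 : ℝ) ^ bb κ ≤ 2 ^ (1 : ℝ) := Real.rpow_le_rpow_of_exponent_le one_le_two (bb_le_one hκ)
    rw [Real.mul_rpow zero_le_two hi.le] at b1
    rw [Real.rpow_one] at b2
    have b3 : 0 < z.im ^ bb κ := Real.rpow_pos_of_pos hi _
    have b4 : ‖z‖ ^ bb κ ≤ 2 * z.im ^ bb κ := b1.trans (by gcongr)
    rw [Real.rpow_neg hi.le]
    calc (z.im ^ bb κ)⁻¹ / 4 * (2 * ‖z‖ ^ bb κ) ≤ (z.im ^ bb κ)⁻¹ / 4 * (2 * (2 * z.im ^ bb κ)) := by gcongr
      _ = 1 := by field_simp; norm_num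
  calc ENNReal.ofReal (c / 4 * z.im ^ (-bb κ)) = ENNReal.ofReal (z.im ^ (-bb κ) / 4) * ENNReal.ofReal c := by
        rw [← ENNReal.ofReal_mul (by positivity)]
        congr 1
        ring
    _ ≤ _ := mul_le_mul_right a2 _
    _ ≤ _ := by
        rw [← mul_assoc, ← mul_assoc, mul_assoc (ENNReal.ofReal _), ← ENNReal.ofReal_ofNat,
          ← ENNReal.ofReal_mul (by norm_num), ← ENNReal.ofReal_mul (by positivity)]
        exact mul_le_of_le_one_left' (ENNReal.ofReal_le_one.2 a3)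

end Crest.Agent.R162.O
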