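import Crest.Agent.R162.O.Sup
import Crest.Agent.R162.O.Gain

/-! Row 162, block O: O2 and O3. -/

set_option autoImplicit false

open scoped ENNReal NNReal Topology
open Set Filter MeasureTheory Metric

noncomputable section
namespace Crest.Agent.R162.O

variable {κ : ℝ} {μ : Measure Path} {g : ℝ}

/-- `pt_super_val` with `jc 2 K`, `K` from `exists_gain` -/
theorem lyap (hκ : 0 < κ) (hκ8 : κ < 8) (hμ : Wie κ μ) (hg : 0 < g) (hga : g < aa κ) :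
    ∃ C, 0 ≤ C ∧ ∀ (z : ℂ) (ε : ℝ) (τ : Path → ℝ) (ω : Path) (s T : ℝ), 0 < ε → After τ ω s T →
    EE μ ω s (fun ω₁ => ENNReal.ofReal (Vg κ g ω₁ z (τ ω₁) * wt 1 ε (Up ω₁ z (τ ω₁)))) ≤
      ENNReal.ofReal (2 * Vg κ g ω z s * wt 1 ε (Up ω z s) + C * Gr κ ω z s) := by
  obtain ⟨c, C, hc, hC, hK⟩ := exists_gain hκ hκ8 hg hga
  refine ⟨2 * C, by positivity, fun z ε τ ω s T hε hτ => ?_⟩
  obtain ⟨K, pK, hK⟩ := hK z ε hε
  have hV : ∀ t ω, 0 ≤ Vg κ g ω z t * chi ε (Up ω z t) := fun t ω =>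
    mul_nonneg (Vg_nonneg _) (chi_nonneg hε Up_nonneg)
  refine pt_super_val hκ hμ (pK.jc 2) hτ ?_ ?_ ?_ ?_ ?_
  · intro ω₁ _ t _ hal
    rw [jc_val]
    exact mul_nonneg zero_le_two ((hV t ω₁).trans (hK t ω₁ hal).1)
  · intro ω₁ _ t _ hal
    rw [jc_gen]
    have a1 := (hK t ω₁ hal).2.2
    have a2 : 0 ≤ c * (Vg κ g ω₁ z t * chi ε (Up ω₁ z t)) / ‖Zc ω₁ z t‖ ^ 2 := by
      have := hV t ω₁
      positivity
    linarith
  · intro ω₁ _ hal
    rw [jc_val]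
    have a1 := (hK _ ω₁ hal).1
    have a2 := mul_le_mul_of_nonneg_left (wt_le_chi hε (Up_nonneg (ω := ω₁) (z := z) (t := τ ω₁)))
      (Vg_nonneg (κ := κ) (ω := ω₁) (z := z) (t := τ ω₁) g)
    linarith
  · intro ω₁ _ hal
    rw [Vg_dead hg hal, zero_mul]
  · intro hal
    rw [jc_val]
    have a1 := (hK _ ω hal).2.1
    have a2 := mul_le_mul_of_nonneg_left (chi_le_wt hε (Up_nonneg (ω := ω) (z := z) (t := s)))
      (Vg_nonneg (κ := κ) (ω := ω) (z := z) (t := s) g)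
    linarith

theorem cut_deriv (ε v : ℝ) :
    deriv (fun v => 1 - cut ε v) v = -(deriv Real.smoothTransition (v / ε - 1) / ε) := by
  have h1 : HasDerivAt (fun w => w / ε - 1) (1 / ε) v := ((hasDerivAt_id v).div_const ε).sub_const 1
  have h2 := (((Real.smoothTransition.contDiff (n := 1)).differentiable one_ne_zero
    (v / ε - 1)).hasDerivAt.comp v h1).const_sub 1
  have h3 : deriv (fun v => 1 - cut ε v) v = _ := h2.deriv
  rw [h3]
  ring

/-- `pt_super_val` with `(1 - cut ε Υ) + D ε^b K` stopped at `max (hitU z ε T) s` (`T < s` : no hit).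
`v * deriv (cut ε) v ≤ 2 L`, supported in `ε ≤ v ≤ 2 ε` where `χ ≥ 3/10`, `V_g ≥ (2ε)^(-b) S²`. -/
theorem hit (hκ : 0 < κ) (hκ8 : κ < 8) (hμ : Wie κ μ) (hg : 0 < g) (hga : g < aa κ) (hg2 : g ≤ 2) :
    ∃ C, 0 ≤ C ∧ ∀ (z : ℂ) (ε : ℝ) (ω : Path) (s T : ℝ), 0 < ε → Alive ω z s → 3 * ε ≤ Up ω z s →
    μ {ω' | spl s ω ω' ∈ Hit z ε T} ≤ ENNReal.ofReal (C * ε ^ bb κ * Vg κ g ω z s) := by
  obtain ⟨c, C, hc, hC, hK⟩ := exists_gain hκ hκ8 hg hga
  obtain ⟨L, hL0, hL⟩ := exists_st_bound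
  set D := 8 * L * 2 / (c * (3 / 10)) with hD
  have hD0 : 0 < D := by positivity
  refine ⟨D * (1 + C), by positivity, fun z ε ω s T hε hs h3 => ?_⟩
  have hlt : ∀ ω₁, Agr s ω ω₁ → ∀ t, 0 ≤ t → Up ω₁ z t ≤ ε → s ≤ t := by
    intro ω₁ ha t ht hU
    by_contra hts
    have := Up_anti (ω := ω₁) (z := z) ht (not_le.1 hts).le
    rw [ha.Up] at this
    linarith
  rcases lt_or_ge T 0 with hT | hT
  · have : {ω' | spl s ω ω' ∈ Hit z ε T} = ∅ := by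
      refine eq_empty_of_forall_notMem fun ω' ⟨t, ht, _⟩ => ?_
      linarith [ht.1, ht.2]
    rw [this, measure_empty]
    exact zero_le
  obtain ⟨K, pK, hK⟩ := hK z ε hε
  have hV : ∀ t ω, 0 ≤ Vg κ g ω z t * chi ε (Up ω z t) := fun t ω =>
    mul_nonneg (Vg_nonneg _) (chi_nonneg hε Up_nonneg)
  have hb : 0 < ε ^ bb κ := Real.rpow_pos_of_pos hε _
  have hτ : After (fun ω₁ => max (hitU z ε T ω₁) s) ω s (max T s) :=
    ⟨(stop_hitU z ε hT).max (Stop.const hs.1), hs.1, fun _ => le_max_right _ _,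
      fun _ => max_le_max (hitU_mem hT).2 le_rfl⟩
  have cd : ContDiffOn ℝ 1 (fun v => 1 - cut ε v) (Ioi 0) :=
    (contDiff_const.sub ((contDiff_cut ε).of_le one_le_two)).contDiffOn
  have mH : MeasurableSet (Hit z ε T) :=
    (show Measurable fun ω : Path => ((ω, z, ε, T) : Path × ℂ × ℝ × ℝ) by fun_prop) measurableSet_hit
  have h := pt_super_val hκ hμ ((pj_U (z := z) cd).add (pK.jc (D * ε ^ bb κ))) hτ
    (F := (Hit z ε T).indicator 1) (v := D * (1 + C) * ε ^ bb κ * Vg κ g ω z s) ?_ ?_ ?_ ?_ ?_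
  · refine le_trans (le_of_eq ?_) h
    change μ (spl s ω ⁻¹' Hit z ε T) = _
    rw [EE, ← lintegral_indicator_one (measurable_spl s ω mH)]
    refine lintegral_congr fun ω' => ?_
    by_cases hω : spl s ω ω' ∈ Hit z ε T
    · rw [indicator_of_mem hω, indicator_of_mem (show ω' ∈ spl s ω ⁻¹' Hit z ε T from hω)]
      simp
    · rw [indicator_of_notMem hω, indicator_of_notMem (show ω' ∉ spl s ω ⁻¹' Hit z ε T from hω)]
      simp
  · intro ω₁ _ t _ hal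
    rw [Jet.val_add, jc_val, jfU_val]
    have a1 := (hV t ω₁).trans (hK t ω₁ hal).1
    have a2 := sub_nonneg.2 (cut_mem ε (Up ω₁ z t)).2
    positivity
  · intro ω₁ _ t _ hal
    rw [Jet.gen_add, jc_gen, jfU_gen, cut_deriv]
    have hZ : 0 < ‖Zc ω₁ z t‖ ^ 2 := pow_pos (norm_Zc_pos hal) 2
    have a1 := mul_le_mul_of_nonneg_left (hK t ω₁ hal).2.2 (mul_pos hD0 hb).le
    have a2 : 0 ≤ D * ε ^ bb κ * (c * (Vg κ g ω₁ z t * chi ε (Up ω₁ z t)) / ‖Zc ω₁ z t‖ ^ 2) := by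
      have := hV t ω₁
      positivity
    by_cases hd : deriv Real.smoothTransition (Up ω₁ z t / ε - 1) = 0
    · rw [hd]
      simp only [zero_div, neg_zero, zero_mul, zero_add]
      linarith
    have b1 : ¬(Up ω₁ z t / ε - 1 ≤ 0 ∨ 1 ≤ Up ω₁ z t / ε - 1) := fun h => hd ((hL _).2.2 h)
    rw [not_or, not_le, not_le, sub_pos, lt_div_iff₀ hε, sub_lt_iff_lt_add, div_lt_iff₀ hε] at b1
    have b2 := le_chi hε (v := Up ω₁ z t) (by linarith [b1.1]) (by linarith [b1.2])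
    have hU := hal.up_pos
    have hSc := Sc_mem (ω := ω₁) (z := z) (t := t)
    have b3 : Sc ω₁ z t ^ 2 ≤ Sc ω₁ z t ^ g := by
      rw [← Real.rpow_two]
      exact Real.rpow_le_rpow_of_exponent_ge hal.sc_pos hSc.2 hg2
    have b4 : 1 / 2 ≤ ε ^ bb κ * Up ω₁ z t ^ (-bb κ) := by
      rw [Real.rpow_neg hU.le, ← div_eq_mul_inv, ← Real.div_rpow hε.le hU.le]
      calc (1 / 2 : ℝ) = (1 / 2 : ℝ) ^ (1 : ℝ) := (Real.rpow_one _).symm
        _ ≤ (1 / 2 : ℝ) ^ bb κ := Real.rpow_le_rpow_of_exponent_ge (by norm_num) (by norm_num) (bb_le_one hκ)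
        _ ≤ _ := by
          refine Real.rpow_le_rpow (by norm_num) ?_ (bb_pos hκ8).le
          rw [le_div_iff₀ hU]
          linarith [b1.2]
    obtain ⟨b5, b6, -⟩ := hL (Up ω₁ z t / ε - 1)
    have b7 : Up ω₁ z t / ε ≤ 2 := by rw [div_le_iff₀ hε]; linarith [b1.2]
    have b8 : 4 * deriv Real.smoothTransition (Up ω₁ z t / ε - 1) * (Up ω₁ z t / ε) * Sc ω₁ z t ^ 2 ≤
        D * ε ^ bb κ * (c * (Vg κ g ω₁ z t * chi ε (Up ω₁ z t))) := by
      have : 0 ≤ Sc ω₁ z t ^ g := Real.rpow_nonneg hSc.1 _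
      calc _ ≤ 4 * L * 2 * Sc ω₁ z t ^ g := by gcongr
        _ = D * c * (1 / 2) * Sc ω₁ z t ^ g * (3 / 10) := by rw [hD]; field_simp; ring
        _ ≤ D * c * (ε ^ bb κ * Up ω₁ z t ^ (-bb κ)) * Sc ω₁ z t ^ g * chi ε (Up ω₁ z t) := by gcongr
        _ = _ := by rw [Vg]; ring
    have b9 := div_le_div_of_nonneg_right b8 hZ.le
    have e1 : -(deriv Real.smoothTransition (Up ω₁ z t / ε - 1) / ε) *
        (-4 * Up ω₁ z t * Sc ω₁ z t ^ 2 / ‖Zc ω₁ z t‖ ^ 2) = 4 * deriv Real.smoothTransition (Up ω₁ z t / ε - 1) *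
          (Up ω₁ z t / ε) * Sc ω₁ z t ^ 2 / ‖Zc ω₁ z t‖ ^ 2 := by ring
    rw [e1]
    rw [mul_div_assoc (D * _)] at b9
    linarith
  · intro ω₁ ha hal
    rw [Jet.val_add, jc_val, jfU_val]
    have a1 := mul_nonneg (mul_pos hD0 hb).le ((hV _ ω₁).trans (hK _ ω₁ hal).1)
    by_cases hω : ω₁ ∈ Hit z ε T
    · have b1 : Up ω₁ z (hitU z ε T ω₁) ≤ ε := (hitU_spec hω).2.trans_le (min_le_left _ _)
      have b2 := hlt ω₁ ha _ (hitU_mem hT).1 b1
      rw [max_eq_left b2] at a1 ⊢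
      rw [indicator_of_mem hω, (cut_eq_zero hε b1).1, Pi.one_apply]
      linarith
    · rw [indicator_of_notMem hω]
      have a2 := sub_nonneg.2 (cut_mem ε (Up ω₁ z (max (hitU z ε T ω₁) s))).2
      linarith
  · intro ω₁ ha hal
    by_cases hω : ω₁ ∈ Hit z ε T
    · have b1 : Up ω₁ z (hitU z ε T ω₁) ≤ ε := (hitU_spec hω).2.trans_le (min_le_left _ _)
      have b2 := hlt ω₁ ha _ (hitU_mem hT).1 b1
      rw [max_eq_left b2] at hal
      exact absurd (hitU_spec hω).1 hal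
    · rw [indicator_of_notMem hω]
  · intro hal
    rw [Jet.val_add, jc_val, jfU_val, cut_eq_one hε (by linarith)]
    have a1 := (hK _ ω hal).2.1
    have a2 := mul_le_of_le_one_right (Vg_nonneg (κ := κ) (ω := ω) (z := z) (t := s) g)
      (chi_le_one hε (v := Up ω z s))
    have a3 : Gr κ ω z s ≤ Vg κ g ω z s := Vg_anti hg.le hga.le
    have a4 := mul_le_mul_of_nonneg_left a3 hC
    have a5 : K.val s ω ≤ (1 + C) * Vg κ g ω z s := by linarith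
    have a6 := mul_le_mul_of_nonneg_left a5 (mul_pos hD0 hb).le
    linarith

/-- `s = 0`, `ω = 0` -/
theorem hit0 (hμ : Wie κ μ) (hg : 0 < g) {C : ℝ} (hC : 0 ≤ C)
    (h : ∀ (z : ℂ) (ε : ℝ) (ω : Path) (s T : ℝ), 0 < ε → Alive ω z s → 3 * ε ≤ Up ω z s →
      μ {ω' | spl s ω ω' ∈ Hit z ε T} ≤ ENNReal.ofReal (C * ε ^ bb κ * Vg κ g ω z s))
    (z : ℂ) (ε T : ℝ) (hε : 0 < ε) (h3 : 3 * ε ≤ z.im) :
    μ (Hit z ε T) ≤ ENNReal.ofReal (C * (ε / z.im) ^ bb κ) := by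
  have hi : 0 < z.im := by linarith
  have hz : z ∈ HH := hi
  have h1 := h z ε 0 0 T hε (alive_zero.2 hz) (by rwa [Up_zero hz])
  have h2 : μ (Hit z ε T) = μ {ω' | spl 0 0 ω' ∈ Hit z ε T} := by
    refine measure_congr ?_
    filter_upwards [hμ.zero] with ω hω
    have : spl 0 0 ω = ω := by
      have ha : Agr 0 0 ω := fun s hs => hω s hs
      rw [← spl_of_agr ha]
      nth_rewrite 2 [← sh_zero_of_zero hω]
      exact spl_sh 0 ω
    change (ω ∈ Hit z ε T) = (spl 0 0 ω ∈ Hit z ε T)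
    rw [this]
  rw [h2]
  refine h1.trans (ENNReal.ofReal_le_ofReal ?_)
  rw [Vg_zero hz rfl, Real.div_rpow hε.le hi.le, mul_assoc, div_eq_mul_inv, ← Real.rpow_neg hi.le]
  have := V0_le (κ := κ) hz hg.le
  have hb : 0 < ε ^ bb κ := Real.rpow_pos_of_pos hε _
  gcongr

end Crest.Agent.R162.O
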