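import Crest.Agent.R162.J

/-! Row 162, block O: jets that are regular at the living points (`PJ`), and the basic jet `jV`. -/

set_option autoImplicit false

open scoped ENNReal NNReal Topology
open Set Filter MeasureTheory Metric

noncomputable section
namespace Crest.Agent.R162.O

variable {ω : Path} {z : ℂ} {t κ η : ℝ} {K K' : Jet ℝ}

/-- jets regular as long as `z` is alive, bounded on `{Y ≥ η}` -/
structure PJ (K : Jet ℝ) (z : ℂ) : Prop where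
  ad : K.Ad
  loc : ∀ t x ω, Alive ω z t → K.At t x ω
  bd : ∀ η T : ℝ, 0 < η → ∃ B, 0 ≤ B ∧ ∀ t ∈ Icc 0 T, ∀ x ω, η ≤ Yc ω z t → K.Bd t x ω B

/-- constant multiple -/
def jc (c : ℝ) (K : Jet ℝ) : Jet ℝ := (Jet.const fun _ => c).mul K

/-- `t + (Re g_t(z) - Re z)²` -/
def jN (z : ℂ) : Jet ℝ :=
  Jet.fv (fun t ω => t + ((gt ω z t).re - z.re) ^ 2)
    (fun t ω => 1 + 2 * ((gt ω z t).re - z.re) * (2 / Zc ω z t).re)

/-- `φ(Υ) ψ(Y) V_g` -/
def jV (κ g : ℝ) (φ ψ : ℝ → ℝ) (z : ℂ) : Jet ℝ :=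
  (jfU φ z).mul ((jfY ψ z).mul ((jfU (fun v => v ^ (-bb κ)) z).mul (jSp g z)))

theorem PJ.add (h : PJ K z) (h' : PJ K' z) : PJ (K.add K') z := by
  refine ⟨h.ad.add h'.ad, fun t x ω ha => (h.loc t x ω ha).add (h'.loc t x ω ha), fun η T hη => ?_⟩
  obtain ⟨B, hB, h1⟩ := h.bd η T hη
  obtain ⟨B', hB', h2⟩ := h'.bd η T hη
  exact ⟨B + B', by positivity, fun t ht x ω hY => (h1 t ht x ω hY).add (h2 t ht x ω hY)⟩

theorem PJ.mul (h : PJ K z) (h' : PJ K' z) : PJ (K.mul K') z := by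
  refine ⟨h.ad.mul h'.ad, fun t x ω ha => (h.loc t x ω ha).mul (h'.loc t x ω ha), fun η T hη => ?_⟩
  obtain ⟨B, hB, h1⟩ := h.bd η T hη
  obtain ⟨B', hB', h2⟩ := h'.bd η T hη
  exact ⟨4 * B * B', by positivity, fun t ht x ω hY => (h1 t ht x ω hY).mul (h2 t ht x ω hY)⟩

theorem pj_const (c : ℝ) : PJ (Jet.const fun _ => c) z := by
  refine ⟨Jet.ad_const c, fun t x ω _ => Jet.at_const continuousAt_const,
    fun η T _ => ⟨|c|, abs_nonneg c, fun t _ x ω _ => ?_⟩⟩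
  simp [Jet.Bd, Jet.const]

theorem PJ.jc (h : PJ K z) (c : ℝ) : PJ (jc c K) z := (pj_const c).mul h

theorem bd_fv {a a' : ℝ → Path → ℝ} {x B : ℝ} (h : |a t ω| ≤ B) (h' : |a' t ω| ≤ B) : (Jet.fv a a').Bd t x ω B := by
  have hB : 0 ≤ B := (abs_nonneg _).trans h
  refine ⟨h, h', ?_, ?_⟩ <;> simpa [Jet.fv] using hB

theorem bd_C1 {φ : ℝ → ℝ} (hφ : ContDiffOn ℝ 1 φ (Ioi 0)) {a : ℝ} (ha : 0 < a) (b : ℝ) :
    ∃ M, 0 ≤ M ∧ ∀ v ∈ Icc a b, |φ v| ≤ M ∧ |deriv φ v| ≤ M := by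
  have hs : Icc a b ⊆ Ioi 0 := fun v hv => ha.trans_le hv.1
  obtain ⟨M₁, h1⟩ := isCompact_Icc.exists_bound_of_continuousOn (hφ.continuousOn.mono hs)
  obtain ⟨M₂, h2⟩ := isCompact_Icc.exists_bound_of_continuousOn
    ((hφ.continuousOn_deriv_of_isOpen isOpen_Ioi le_rfl).mono hs)
  refine ⟨max 0 (max M₁ M₂), le_max_left _ _, fun v hv => ⟨(h1 v hv).trans ?_, (h2 v hv).trans ?_⟩⟩
  · exact le_max_of_le_right (le_max_left _ _)
  · exact le_max_of_le_right (le_max_right _ _)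

theorem Yc_zero (hz : z ∈ HH) : Yc ω z 0 = z.im := by rw [Yc, gt_zero hz]

/-- on `{Y ≥ η}`: `Υ ∈ [Im z (η / Im z)², Im z]` (`Up_mul_Yc_sq`, `Up_anti` with `s = 0`), `|Z| ≥ Y ≥ η` -/
theorem pj_U {φ : ℝ → ℝ} (hφ : ContDiffOn ℝ 1 φ (Ioi 0)) : PJ (jfU φ z) z := by
  refine ⟨ad_jfU φ, fun t x ω h => h.at_jfU hφ, fun η T hη => ?_⟩
  by_cases hz : z ∈ HH
  swap
  · exact ⟨0, le_rfl, fun t _ x ω hY => absurd (alive_iff.2 (hη.trans_le hY)).mem hz⟩
  have hi : 0 < z.im := hz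
  obtain ⟨M, hM, h1⟩ := bd_C1 hφ (a := η ^ 2 / z.im) (by positivity) z.im
  refine ⟨M + M * (4 * z.im / η ^ 2), by positivity, fun t ht x ω hY => ?_⟩
  have hal : Alive ω z t := alive_iff.2 (hη.trans_le hY)
  have a1 : Up ω z t ≤ z.im := (Up_anti le_rfl ht.1).trans_eq (Up_zero hz)
  have a2 : η ^ 2 / z.im ≤ Up ω z t := by
    have b1 := Up_mul_Yc_sq (ω := ω) (z := z) le_rfl ht.1
    rw [Up_zero hz, Yc_zero hz] at b1
    have b2 : η ^ 2 ≤ Yc ω z t ^ 2 := by gcongr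
    rw [div_le_iff₀ hi]
    refine le_of_mul_le_mul_left ?_ hi
    nlinarith
  obtain ⟨a3, a4⟩ := h1 _ ⟨a2, a1⟩
  have a5 : η ≤ ‖Zc ω z t‖ := hY.trans Yc_le_norm
  have hS := Sc_mem (ω := ω) (z := z) (t := t)
  have a6 : Sc ω z t ^ 2 ≤ 1 := pow_le_one₀ hS.1 hS.2
  have hU := hal.up_pos
  have a7 : |-4 * Up ω z t * Sc ω z t ^ 2 / ‖Zc ω z t‖ ^ 2| ≤ 4 * z.im / η ^ 2 := by
    rw [neg_mul, neg_mul, neg_div, abs_neg, abs_of_nonneg (by positivity)]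
    calc 4 * Up ω z t * Sc ω z t ^ 2 / ‖Zc ω z t‖ ^ 2 ≤ 4 * z.im * 1 / η ^ 2 := by gcongr
      _ = _ := by rw [mul_one]
  refine bd_fv (a3.trans (le_add_of_nonneg_right (by positivity))) ?_
  rw [abs_mul]
  exact le_add_of_nonneg_of_le hM (by gcongr)

/-- on `{Y ≥ η}`: `Y ∈ [η, Im z]` -/
theorem pj_Y {φ : ℝ → ℝ} (hφ : ContDiffOn ℝ 1 φ (Ioi 0)) : PJ (jfY φ z) z := by
  refine ⟨ad_jfY φ, fun t x ω h => h.at_jfY hφ, fun η T hη => ?_⟩
  obtain ⟨M, hM, h1⟩ := bd_C1 hφ hη z.im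
  refine ⟨M + M * (2 / η), by positivity, fun t ht x ω hY => ?_⟩
  have hY0 := hη.trans_le hY
  have hal : Alive ω z t := alive_iff.2 hY0
  have a1 : Yc ω z t ≤ z.im := (Yc_anti le_rfl ht.1).trans_eq (Yc_zero hal.mem)
  obtain ⟨a3, a4⟩ := h1 _ ⟨hY, a1⟩
  have a5 : Yc ω z t ≤ ‖Zc ω z t‖ := Yc_le_norm
  have a7 : |-2 * Yc ω z t / ‖Zc ω z t‖ ^ 2| ≤ 2 / η := by
    rw [neg_mul, neg_div, abs_neg, abs_of_nonneg (by positivity)]
    calc 2 * Yc ω z t / ‖Zc ω z t‖ ^ 2 ≤ 2 * Yc ω z t / Yc ω z t ^ 2 := by gcongr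
      _ = 2 / Yc ω z t := by field_simp
      _ ≤ _ := by gcongr
  refine bd_fv (a3.trans (le_add_of_nonneg_right (by positivity))) ?_
  rw [abs_mul]
  exact le_add_of_nonneg_of_le hM (by gcongr)

theorem pj_S {p : ℝ} (hp : 0 ≤ p) : PJ (jSp p z) z := by
  exact ⟨ad_jSp, fun t x ω h => h.at_jSp, fun η T hη => ⟨_, by positivity, fun t _ x ω hY => jSp_bd hp hη hY⟩⟩

/-- `Jet.at_fv` with `cont_gt`, `deriv_gt`; `‖g_t z - z‖ ≤ 2t/Y` by `norm_ft_sub`, `ft_gt` -/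
theorem pj_N : PJ (jN z) z := by
  refine ⟨fun t x ω ω' h => ?_, fun t x ω h => ?_, fun η T hη => ?_⟩
  · simp [jN, Jet.fv, Zc, h.gt, h t le_rfl]
  · have hg : ContinuousWithinAt (fun p : ℝ × Path => gt p.2 z p.1) (Ici 0 ×ˢ univ) (t, ω) :=
      ContinuousWithinAt.comp (f := fun p : ℝ × Path => ((p.2, z, p.1) : Path × ℂ × ℝ)) (x := (t, ω))
        (g := fun p : Path × ℂ × ℝ => gt p.1 p.2.1 p.2.2) h.cont_gt (Continuous.continuousWithinAt (by fun_prop)) fun q hq => ⟨mem_univ _, mem_univ _, hq.1⟩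
    have hre : ContinuousWithinAt (fun p : ℝ × Path => (gt p.2 z p.1).re - z.re) (Ici 0 ×ˢ univ) (t, ω) :=
      (Complex.continuous_re.continuousAt.comp_continuousWithinAt hg).sub continuousWithinAt_const
    have hZ : ContinuousWithinAt (fun p : ℝ × Path => Zc p.2 z p.1) (Ici 0 ×ˢ univ) (t, ω) :=
      hg.sub (Continuous.continuousWithinAt (by fun_prop))
    have hZ0 : Zc ω z t ≠ 0 := fun h0 => by
      have := (alive_iff.1 h).trans_le Yc_le_norm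
      rw [h0, norm_zero] at this
      exact lt_irrefl _ this
    refine Jet.at_fv (continuousWithinAt_fst.add (hre.pow 2)) (continuousWithinAt_const.add
      ((continuousWithinAt_const.mul hre).mul (Complex.continuous_re.continuousAt.comp_continuousWithinAt
        (continuousWithinAt_const.div hZ hZ0)))) ?_
    have d1 : HasDerivWithinAt (fun r => (gt ω z r).re) (2 / Zc ω z t).re (Ici t) t :=
      Complex.reCLM.hasFDerivAt.comp_hasDerivWithinAt t (h.deriv_gt.mono (Ici_subset_Ici.2 h.1))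
    have d2 := (hasDerivWithinAt_id t (Ici t)).add ((d1.sub_const z.re).pow 2)
    convert d2 using 1
    · rfl
    · simp
  · refine ⟨1 + |T| + (2 * |T| / η) ^ 2 + 2 * (2 * |T| / η) * (2 / η), by positivity, fun t ht x ω hY => ?_⟩
    have hY0 := hη.trans_le hY
    have hal : Alive ω z t := alive_iff.2 hY0
    have hT : t ≤ |T| := ht.2.trans (le_abs_self T)
    have a1 : |(gt ω z t).re - z.re| ≤ 2 * |T| / η := by
      have b1 := norm_ft_sub (ω := ω) (ζ := gt ω z t) ht.1 hY0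
      rw [hal.ft_gt, norm_sub_rev] at b1
      rw [← Complex.sub_re]
      refine (Complex.abs_re_le_norm _).trans (b1.trans ?_)
      have : η ≤ (gt ω z t).im := hY
      gcongr
    have a2 : |(2 / Zc ω z t).re| ≤ 2 / η := by
      refine (Complex.abs_re_le_norm _).trans ?_
      have : η ≤ ‖Zc ω z t‖ := hY.trans Yc_le_norm
      rw [norm_div, Complex.norm_ofNat]
      gcongr
    have p1 : 0 ≤ 2 * (2 * |T| / η) * (2 / η) := by positivity
    have p2 : 0 ≤ (2 * |T| / η) ^ 2 := by positivity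
    refine bd_fv ?_ ?_
    · have b1 : ((gt ω z t).re - z.re) ^ 2 ≤ (2 * |T| / η) ^ 2 := by
        rw [← sq_abs]
        gcongr
      rw [abs_of_nonneg (add_nonneg ht.1 (sq_nonneg _))]
      linarith
    · have b1 : |2 * ((gt ω z t).re - z.re) * (2 / Zc ω z t).re| ≤ 2 * (2 * |T| / η) * (2 / η) := by
        rw [abs_mul, abs_mul, abs_two]
        gcongr
      have b2 := abs_add_le 1 (2 * ((gt ω z t).re - z.re) * (2 / Zc ω z t).re)
      rw [abs_one] at b2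
      linarith [abs_nonneg T]

theorem pj_V {g : ℝ} {φ ψ : ℝ → ℝ} (hg : 0 ≤ g) (hφ : ContDiffOn ℝ 1 φ (Ioi 0)) (hψ : ContDiffOn ℝ 1 ψ (Ioi 0)) :
    PJ (jV κ g φ ψ z) z := by
  exact (pj_U hφ).mul ((pj_Y hψ).mul ((pj_U fun v hv =>
    (Real.contDiffAt_rpow_const_of_ne (ne_of_gt hv)).contDiffWithinAt).mul (pj_S hg)))

theorem PJ.ok (h : PJ K z) (hη : 0 < η) (T : ℝ) : ((jfY (cut η) z).mul K).Ok 0 T := by
  obtain ⟨C, -, hC⟩ := bd_cut_mul hη
  obtain ⟨B, hB, h1⟩ := h.bd η T hη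
  exact ((ad_jfY _).mul h.ad).ok (C := C * B) le_rfl fun t ht x ω =>
    ⟨at_cut_mul hη ht.1 (h.loc t x ω), hC z t x ω K B hB (h1 t ht x ω)⟩

theorem jc_val (c : ℝ) : (jc c K).val t ω = c * K.val t ω := rfl

theorem jc_gen (c : ℝ) : (jc c K).gen κ t ω = c * K.gen κ t ω := by
  rw [jc, Jet.gen_mul, Jet.gen_const]
  simp [Jet.const, Jet.val]

theorem jfY_val (φ : ℝ → ℝ) : (jfY φ z).val t ω = φ (Yc ω z t) := rfl

theorem jfU_val (φ : ℝ → ℝ) : (jfU φ z).val t ω = φ (Up ω z t) := rfl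

theorem jN_val : (jN z).val t ω = t + ((gt ω z t).re - z.re) ^ 2 := rfl

theorem jfY_gen (φ : ℝ → ℝ) :
    (jfY φ z).gen κ t ω = deriv φ (Yc ω z t) * (-2 * Yc ω z t / ‖Zc ω z t‖ ^ 2) := Jet.gen_fv _ _

theorem jfU_gen (φ : ℝ → ℝ) : (jfU φ z).gen κ t ω =
    deriv φ (Up ω z t) * (-4 * Up ω z t * Sc ω z t ^ 2 / ‖Zc ω z t‖ ^ 2) := Jet.gen_fv _ _

theorem jN_gen : (jN z).gen κ t ω = 1 + 2 * ((gt ω z t).re - z.re) * (2 / Zc ω z t).re := Jet.gen_fv _ _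

/-- product with a process of finite variation -/
theorem gen_fv_mul (a a' : ℝ → Path → ℝ) :
    ((Jet.fv a a').mul K).gen κ t ω = a' t ω * K.val t ω + a t ω * K.gen κ t ω := by
  rw [Jet.gen_mul, Jet.gen_fv]
  simp [Jet.fv, Jet.val]

theorem jV_val (g : ℝ) (φ ψ : ℝ → ℝ) :
    (jV κ g φ ψ z).val t ω = φ (Up ω z t) * ψ (Yc ω z t) * Vg κ g ω z t := by
  simp only [jV, Jet.val_mul, jfU_val, jfY_val, jSp_val, Vg]
  ring

theorem jV_gen (hκ : 0 < κ) (h : Alive ω z t) (g : ℝ) (φ ψ : ℝ → ℝ) :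
    (jV κ g φ ψ z).gen κ t ω = Vg κ g ω z t / ‖Zc ω z t‖ ^ 2 *
      (-4 * Sc ω z t ^ 2 * (Up ω z t * deriv φ (Up ω z t)) * ψ (Yc ω z t) -
        2 * (Yc ω z t * deriv ψ (Yc ω z t)) * φ (Up ω z t) +
        φ (Up ω z t) * ψ (Yc ω z t) *
          (-(κ / 2) * g * (aa κ - g) * (1 - Sc ω z t ^ 2) + κ / 2 * (aa κ - g) * Sc ω z t ^ 2)) := by
  have hU := h.up_pos
  have hd : deriv (fun v : ℝ => v ^ (-bb κ)) (Up ω z t) = -bb κ * Up ω z t ^ (-bb κ) / Up ω z t := by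
    rw [(Real.hasDerivAt_rpow_const (Or.inl hU.ne')).deriv, Real.rpow_sub_one hU.ne']
    ring
  have e1 : (jV κ g φ ψ z).gen κ t ω = _ := gen_fv_mul _ _
  have e2 : ((jfY ψ z).mul ((jfU (fun v => v ^ (-bb κ)) z).mul (jSp g z))).gen κ t ω = _ := gen_fv_mul _ _
  have e3 : ((jfU (fun v => v ^ (-bb κ)) z).mul (jSp g z)).gen κ t ω = _ := gen_fv_mul _ _
  rw [e1, e2, e3, h.jSp_gen hκ, hd]
  simp only [Jet.val_mul, jfU_val, jfY_val, jSp_val, Vg]
  have e4 : bb κ = κ / 8 * aa κ := by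
    rw [aa, bb]
    field_simp
  generalize Up ω z t ^ (-bb κ) = A
  rw [e4]
  field_simp
  ring

/-! small facts -/

theorem aa_pos (hκ : 0 < κ) (hκ8 : κ < 8) : 0 < aa κ := by
  rw [aa, sub_pos, lt_div_iff₀ hκ]
  linarith

theorem bb_pos (hκ8 : κ < 8) : 0 < bb κ := by
  rw [bb]
  linarith

theorem bb_le_one (hκ : 0 < κ) : bb κ ≤ 1 := by
  rw [bb]
  linarith

theorem Vg_nonneg (g : ℝ) : 0 ≤ Vg κ g ω z t := by
  exact mul_nonneg (Real.rpow_nonneg Up_nonneg _) (Real.rpow_nonneg Sc_mem.1 _)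

theorem Vg_dead {g : ℝ} (hg : 0 < g) (h : ¬Alive ω z t) : Vg κ g ω z t = 0 := by
  rw [Vg, (dead h).2.2.2, Real.zero_rpow hg.ne', mul_zero]

/-- `V_{g + e} = V_g S^e` -/
theorem Vg_add (h : Alive ω z t) (g e : ℝ) : Vg κ (g + e) ω z t = Vg κ g ω z t * Sc ω z t ^ e := by
  rw [Vg, Vg, Real.rpow_add h.sc_pos, mul_assoc]

theorem Vg_anti {g g' : ℝ} (hg : 0 ≤ g) (h : g ≤ g') : Vg κ g' ω z t ≤ Vg κ g ω z t := by
  exact mul_le_mul_of_nonneg_left (Real.rpow_le_rpow_of_exponent_ge' Sc_mem.1 Sc_mem.2 hg h)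
    (Real.rpow_nonneg Up_nonneg _)

theorem Vg_zero (hz : z ∈ HH) (h0 : ω 0 = 0) (g : ℝ) : Vg κ g ω z 0 = V0 κ g z := by
  simp [Vg, V0, Sc, Zc, Up_zero hz, Yc_zero hz, gt_zero hz, h0]

theorem V0_le (hz : z ∈ HH) {g : ℝ} (hg : 0 ≤ g) : V0 κ g z ≤ z.im ^ (-bb κ) := by
  have hi : 0 < z.im := hz
  have h1 : z.im ≤ ‖z‖ := (le_abs_self _).trans (Complex.abs_im_le_norm z)
  exact mul_le_of_le_one_right (Real.rpow_nonneg hi.le _)
    (Real.rpow_le_one (by positivity) ((div_le_one (hi.trans_le h1)).2 h1) hg)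

theorem norm_Zc_pos (h : Alive ω z t) : 0 < ‖Zc ω z t‖ := by
  exact (alive_iff.1 h).trans_le Yc_le_norm

theorem measurable_Vg (g : ℝ) : Measurable fun p : Path × ℝ => Vg κ g p.1 z p.2 := by
  have hm : Measurable fun p : Path × ℝ => ((p.1, z, p.2) : Path × ℂ × ℝ) := by fun_prop
  exact ((measurable_Up.comp hm).pow_const _).mul ((measurable_Sc.comp hm).pow_const _)

/-- the derivative of `smoothTransition` -/
theorem exists_st_bound : ∃ L, 0 < L ∧ ∀ u, 0 ≤ deriv Real.smoothTransition u ∧ deriv Real.smoothTransition u ≤ L ∧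
    (u ≤ 0 ∨ 1 ≤ u → deriv Real.smoothTransition u = 0) := by
  have hc : Continuous (deriv Real.smoothTransition) :=
    (Real.smoothTransition.contDiff (n := 1)).continuous_deriv le_rfl
  have h0 : ∀ u, u ≤ 0 → deriv Real.smoothTransition u = 0 := fun u hu =>
    IsLocalMin.deriv_eq_zero (Eventually.of_forall fun w => by
      rw [Real.smoothTransition.zero_of_nonpos hu]; exact Real.smoothTransition.nonneg w)
  have h1 : ∀ u, 1 ≤ u → deriv Real.smoothTransition u = 0 := fun u hu =>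
    IsLocalMax.deriv_eq_zero (Eventually.of_forall fun w => by
      rw [Real.smoothTransition.one_of_one_le hu]; exact Real.smoothTransition.le_one w)
  obtain ⟨M, hM⟩ := isCompact_Icc.exists_bound_of_continuousOn (hc.continuousOn (s := Icc 0 1))
  refine ⟨|M| + 1, by positivity, fun u => ⟨Real.smoothTransition.monotone.deriv_nonneg, ?_,
    fun h => h.elim (h0 u) (h1 u)⟩⟩
  rcases le_total u 0 with h | h
  · rw [h0 u h]; positivity
  rcases le_total 1 u with h' | h'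
  · rw [h1 u h']; positivity
  have := hM u ⟨h, h'⟩
  linarith [le_abs_self M, le_abs_self (deriv Real.smoothTransition u), Real.norm_eq_abs (deriv Real.smoothTransition u)]

/-- a stopping time starts after time `0` -/
theorem after_zero {σ : Path → ℝ} {T : ℝ} (hσ : Stop σ) (hT : ∀ ω, σ ω ≤ T) : After σ 0 0 T :=
  ⟨hσ, le_rfl, fun _ => hσ.nonneg _, hT⟩

end Crest.Agent.R162.O
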