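import Crest.Agent.R162.O.Zero

/-! Row 162, block O: `G · st (log (Υ/y))` loses nothing at the death of the point. -/

set_option autoImplicit false

open scoped ENNReal NNReal Topology
open Set Filter MeasureTheory Metric

noncomputable section
namespace Crest.Agent.R162.O

variable {κ : ℝ} {μ : Measure Path}

theorem rpow_le_small {a e : ℝ} (ha : 0 < a) (he : 0 < e) :
    ∃ C, 0 ≤ C ∧ ∀ S ∈ Icc (0 : ℝ) 1, S ^ a ≤ e + C * S ^ 2 := by
  have hσ : 0 < e ^ a⁻¹ := Real.rpow_pos_of_pos he _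
  refine ⟨1 / (e ^ a⁻¹) ^ 2, by positivity, fun S hS => ?_⟩
  rcases le_or_gt S (e ^ a⁻¹) with h | h
  · have h1 : S ^ a ≤ (e ^ a⁻¹) ^ a := Real.rpow_le_rpow hS.1 h ha.le
    rw [Real.rpow_inv_rpow he.le ha.ne'] at h1
    have : 0 ≤ 1 / (e ^ a⁻¹) ^ 2 * S ^ 2 := by positivity
    linarith
  · have h1 : S ^ a ≤ 1 := Real.rpow_le_one hS.1 hS.2 ha.le
    have h2 : 1 ≤ 1 / (e ^ a⁻¹) ^ 2 * S ^ 2 := by
      rw [one_div_mul_eq_div, le_div_iff₀ (by positivity), one_mul]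
      exact pow_le_pow_left₀ hσ.le h.le 2
    linarith

theorem deriv_cut_zero {η v : ℝ} (hη : 0 < η) (hv : 2 * η < v) : deriv (cut η) v = 0 := by
  have : cut η =ᶠ[𝓝 v] fun _ => 1 := by
    filter_upwards [Ioi_mem_nhds hv] with w hw using cut_eq_one hη (le_of_lt hw)
  rw [this.deriv_eq, deriv_const]

/-- slow cut-off -/
def slow (θ Y₀ v : ℝ) : ℝ := Real.smoothTransition (1 + θ * Real.log (v / Y₀))

theorem slow_cd (θ : ℝ) {Y₀ : ℝ} (h : 0 < Y₀) : ContDiffOn ℝ 1 (slow θ Y₀) (Ioi 0) := by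
  intro v hv
  have hv' : v / Y₀ ≠ 0 := (div_pos hv h).ne'
  refine ContDiffAt.contDiffWithinAt ?_
  exact (Real.smoothTransition.contDiffAt (n := 1)).comp v
    (contDiffAt_const.add (contDiffAt_const.mul ((contDiffAt_id.div_const Y₀).log hv')))

theorem slow_deriv (θ : ℝ) {Y₀ v : ℝ} (h : 0 < Y₀) (hv : 0 < v) :
    v * deriv (slow θ Y₀) v = θ * deriv Real.smoothTransition (1 + θ * Real.log (v / Y₀)) := by
  have hv' : v / Y₀ ≠ 0 := (div_pos hv h).ne'
  have h1 : HasDerivAt (fun w => 1 + θ * Real.log (w / Y₀)) (θ * (1 / Y₀ / (v / Y₀))) v :=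
    ((((hasDerivAt_id v).div_const Y₀).log hv').const_mul θ).const_add 1
  have h2 := ((Real.smoothTransition.contDiff (n := 1)).differentiable one_ne_zero
    (1 + θ * Real.log (v / Y₀))).hasDerivAt.comp v h1
  have h3 : deriv (slow θ Y₀) v = _ := h2.deriv
  rw [h3]
  field_simp

theorem slow_arg {θ Y₀ v : ℝ} (hθ : 0 < θ) (h : 0 < Y₀) (hv : 0 < v) (hv' : v ≤ Y₀ * Real.exp (-1 / θ)) :
    1 + θ * Real.log (v / Y₀) ≤ 0 := by
  have h1 : Real.log (v / Y₀) ≤ -1 / θ := by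
    rw [Real.log_le_iff_le_exp (div_pos hv h), div_le_iff₀ h]
    linarith
  have h2 : θ * Real.log (v / Y₀) ≤ θ * (-1 / θ) := mul_le_mul_of_nonneg_left h1 hθ.le
  have h3 : θ * (-1 / θ) = -1 := by field_simp
  linarith

theorem lg_cd {y : ℝ} (hy : 0 < y) : ContDiffOn ℝ 1 (fun v => 2 * Real.log (1 + v / y)) (Ioi 0) := by
  intro v hv
  have hv' : 1 + v / y ≠ 0 := by have := div_pos hv hy; positivity
  exact (contDiffAt_const.mul ((contDiffAt_const.add (contDiffAt_id.div_const y)).log hv')).contDiffWithinAt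

theorem lg_deriv {y v : ℝ} (hy : 0 < y) (hv : 0 < v) :
    deriv (fun v => 2 * Real.log (1 + v / y)) v = 2 / (y + v) := by
  have hv' : 1 + v / y ≠ 0 := by positivity
  have h1 : HasDerivAt (fun w => 2 * Real.log (1 + w / y)) (2 * (1 / y / (1 + v / y))) v :=
    ((((hasDerivAt_id v).div_const y).const_add 1).log hv').const_mul 2
  rw [h1.deriv]
  field_simp

theorem sub_ge_aux (hκ : 0 < κ) (hκ8 : κ < 8) (hμ : Wie κ μ) {y : ℝ} (hy : 0 < y) {z : ℂ} (h3 : 3 * y ≤ z.im)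
    {σ : Path → ℝ} {T : ℝ} (hσ : Stop σ) (hT : ∀ ω, σ ω ≤ T) {L e C θ : ℝ} (he : 0 < e) (hC : 0 ≤ C) (hθ : 0 < θ)
    (hL : ∀ u, 0 ≤ deriv Real.smoothTransition u ∧ deriv Real.smoothTransition u ≤ L)
    (hS : ∀ S ∈ Icc (0 : ℝ) 1, S ^ aa κ ≤ e + C * S ^ 2) :
    ENNReal.ofReal (V0 κ (aa κ) z - e * y ^ (-bb κ) -
        L * θ * C * y ^ (-bb κ) / 2 * (2 * Real.log (1 + z.im / y))) ≤
      ∫⁻ ω, (ENNReal.ofReal (Gr κ ω z (σ ω)) +
      ∫⁻ t in Ioc 0 (σ ω), ENNReal.ofReal (densF κ y ω z t)) ∂μ := by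
  have hY₀ : 0 < z.im := by linarith
  have hz : z ∈ HH := hY₀
  have hL0 : 0 ≤ L := (hL 0).1.trans (hL 0).2
  set B := y ^ (-bb κ) with hB
  have hB0 : 0 < B := Real.rpow_pos_of_pos hy _
  set D := L * θ * C * B / 2 with hD
  have hD0 : 0 ≤ D := by positivity
  set η := z.im * Real.exp (-1 / θ) / 2 with hη
  have hη0 : 0 < η := by positivity
  set ψ : ℝ → ℝ := fun v => 2 * Real.log (1 + v / y) with hψ
  have hψ0 : ∀ v, 0 ≤ v → 0 ≤ ψ v := fun v hv =>
    mul_nonneg zero_le_two (Real.log_nonneg (le_add_of_nonneg_right (div_nonneg hv hy.le)))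
  set K : Jet ℝ := ((jfY (slow θ z.im) z).mul ((jM κ y z).add (Jet.const fun _ => -(e * B)))).add
    (jc (-D) (jfU ψ z)) with hK
  have pK : PJ K z := ((pj_Y (slow_cd θ hY₀)).mul ((pj_M hκ hκ8 hy z).add (pj_const _))).add
    ((pj_U (lg_cd hy)).jc _)
  have Kval : ∀ t ω, K.val t ω = slow θ z.im (Yc ω z t) * ((jM κ y z).val t ω - e * B) - D * ψ (Up ω z t) := by
    intro t ω
    simp only [hK, Jet.val_add, Jet.val_mul, jc_val, jfY_val, jfU_val]
    simp only [Jet.val, Jet.const]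
    ring
  have Kgen : ∀ t ω, Alive ω z t → K.gen κ t ω =
      deriv (slow θ z.im) (Yc ω z t) * (-2 * Yc ω z t / ‖Zc ω z t‖ ^ 2) * ((jM κ y z).val t ω - e * B) -
        slow θ z.im (Yc ω z t) * densF κ y ω z t +
        D * (2 / (y + Up ω z t) * (4 * Up ω z t * Sc ω z t ^ 2 / ‖Zc ω z t‖ ^ 2)) := by
    intro t ω hal
    have e1 : ((jfY (slow θ z.im) z).mul ((jM κ y z).add (Jet.const fun _ => -(e * B)))).gen κ t ω = _ :=
      gen_fv_mul _ _
    simp only [hK, Jet.gen_add, jc_gen, e1, jfU_gen, Jet.gen_const, jM_gen hκ hy hal, hψ, lg_deriv hy hal.up_pos,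
      Jet.val_add]
    simp only [Jet.val, Jet.const]
    ring
  have hs01 : ∀ v, slow θ z.im v ∈ Icc (0 : ℝ) 1 := fun v =>
    ⟨Real.smoothTransition.nonneg _, Real.smoothTransition.le_one _⟩
  have hM : ∀ t ω, 0 ≤ (jM κ y z).val t ω ∧ (jM κ y z).val t ω ≤ Gr κ ω z t := by
    intro t ω
    have hG : 0 ≤ Gr κ ω z t := Vg_nonneg _
    rw [jM_val]
    exact ⟨mul_nonneg (Real.smoothTransition.nonneg _) hG,
      mul_le_of_le_one_left hG (Real.smoothTransition.le_one _)⟩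
  have h := dynkin_ge hκ hμ (pK.ok hη0 T) (after_zero hσ hT) le_rfl
    (F := fun ω => ENNReal.ofReal (Gr κ ω z (σ ω))) (h := fun t ω => ENNReal.ofReal (densF κ y ω z t)) ?_ ?_
  · rw [hμ.EE_zero (fun _ _ => rfl)] at h
    refine le_trans (le_of_eq ?_) h
    congr 1
    have e1 : Yc 0 z 0 = z.im := by rw [Yc, gt_zero hz]
    have e2 : Real.smoothTransition (Real.log (z.im / y)) = 1 := by
      refine Real.smoothTransition.one_of_one_le ?_
      rw [Real.le_log_iff_exp_le (div_pos hY₀ hy), le_div_iff₀ hy]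
      have := Real.exp_one_lt_d9
      nlinarith
    have e3 : cut η z.im = 1 := by
      refine cut_eq_one hη0 ?_
      have : Real.exp (-1 / θ) ≤ 1 := Real.exp_le_one_iff.2 (div_nonpos_of_nonpos_of_nonneg (by norm_num) hθ.le)
      rw [hη]
      nlinarith
    have e4 : slow θ z.im z.im = 1 := by simp [slow, hY₀.ne']
    rw [val_cut, Kval, jM_val, e1, Up_zero hz, e2, e3, e4, Gr, Vg_zero hz rfl]
    ring
  · intro ω' t _
    generalize spl 0 0 ω' = ω
    refine ENNReal.ofReal_le_ofReal ?_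
    have hd := densF_nonneg (κ := κ) y ω z t
    rw [gen_cut]
    by_cases hal : Alive ω z t
    swap
    · rw [(cut_dead hη0 hal).1, (cut_dead hη0 hal).2]
      simpa using hd
    have hY : 0 < Yc ω z t := alive_iff.1 hal
    have hU := hal.up_pos
    have hZ : 0 < ‖Zc ω z t‖ ^ 2 := pow_pos (norm_Zc_pos hal) 2
    have hSc := Sc_mem (ω := ω) (z := z) (t := t)
    -- the term of the outer cut-off
    have a1 : 0 ≤ deriv (cut η) (Yc ω z t) * (-2 * Yc ω z t / ‖Zc ω z t‖ ^ 2) * K.val t ω := by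
      rcases le_or_gt (Yc ω z t) (2 * η) with hle | hlt
      · have : slow θ z.im (Yc ω z t) = 0 :=
          Real.smoothTransition.zero_of_nonpos (slow_arg hθ hY₀ hY (by rw [hη] at hle; linarith))
        rw [Kval, this]
        have b1 := deriv_cut_nonneg hη0 (Yc ω z t)
        have b2 : -2 * Yc ω z t / ‖Zc ω z t‖ ^ 2 ≤ 0 := div_nonpos_of_nonpos_of_nonneg (by linarith) hZ.le
        have b3 := mul_nonneg hD0 (hψ0 _ hU.le)
        exact mul_nonneg_of_nonpos_of_nonpos (mul_nonpos_of_nonneg_of_nonpos b1 b2) (by linarith)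
      · rw [deriv_cut_zero hη0 hlt]
        simp
    have a2 : -K.gen κ t ω ≤ densF κ y ω z t := by
      rw [Kgen t ω hal]
      have b1 : slow θ z.im (Yc ω z t) * densF κ y ω z t ≤ densF κ y ω z t :=
        mul_le_of_le_one_left hd (hs01 _).2
      have b2 := slow_deriv θ hY₀ hY
      obtain ⟨b3, b4⟩ := hL (1 + θ * Real.log (Yc ω z t / z.im))
      set w := Yc ω z t * deriv (slow θ z.im) (Yc ω z t) with hw
      have w0 : 0 ≤ w := by rw [b2]; positivity
      have w1 : w ≤ θ * L := by rw [b2]; gcongr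
      have b5 : 2 * w * ((jM κ y z).val t ω - e * B) ≤
          D * (2 / (y + Up ω z t) * (4 * Up ω z t * Sc ω z t ^ 2)) := by
        rcases le_or_gt (Up ω z t) y with hle | hlt
        · have c1 : (jM κ y z).val t ω = 0 := by
            rw [jM_val, Real.smoothTransition.zero_of_nonpos
              (Real.log_nonpos (div_pos hU hy).le ((div_le_one hy).2 hle)), zero_mul]
          have c2 : 0 ≤ D * (2 / (y + Up ω z t) * (4 * Up ω z t * Sc ω z t ^ 2)) := by positivity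
          have c3 : 0 ≤ w * (e * B) := by positivity
          rw [c1]
          linarith
        · have c1 : Gr κ ω z t ≤ B * (e + C * Sc ω z t ^ 2) := by
            refine mul_le_mul ?_ (hS _ hSc) (Real.rpow_nonneg hSc.1 _) hB0.le
            exact Real.rpow_le_rpow_of_nonpos hy hlt.le (neg_nonpos.2 (bb_pos hκ8).le)
          have c2 : (jM κ y z).val t ω - e * B ≤ B * C * Sc ω z t ^ 2 := by linarith [(hM t ω).2]
          have c3 : 1 ≤ 2 / (y + Up ω z t) * Up ω z t := by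
            rw [div_mul_eq_mul_div, le_div_iff₀ (by positivity)]
            linarith
          have c4 : 0 ≤ B * C * Sc ω z t ^ 2 := by positivity
          calc 2 * w * ((jM κ y z).val t ω - e * B) ≤ 2 * w * (B * C * Sc ω z t ^ 2) := by gcongr
            _ ≤ 2 * (θ * L) * (B * C * Sc ω z t ^ 2) := by gcongr
            _ = D * (1 * (4 * Sc ω z t ^ 2)) := by rw [hD]; ring
            _ ≤ D * ((2 / (y + Up ω z t) * Up ω z t) * (4 * Sc ω z t ^ 2)) := by gcongr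
            _ = _ := by ring
      have b6 := div_le_div_of_nonneg_right b5 hZ.le
      have b7 : deriv (slow θ z.im) (Yc ω z t) * (-2 * Yc ω z t / ‖Zc ω z t‖ ^ 2) * ((jM κ y z).val t ω - e * B) =
          -(2 * w * ((jM κ y z).val t ω - e * B) / ‖Zc ω z t‖ ^ 2) := by rw [hw]; ring
      have b8 : D * (2 / (y + Up ω z t) * (4 * Up ω z t * Sc ω z t ^ 2 / ‖Zc ω z t‖ ^ 2)) =
          D * (2 / (y + Up ω z t) * (4 * Up ω z t * Sc ω z t ^ 2)) / ‖Zc ω z t‖ ^ 2 := by ring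
      rw [b7, b8]
      linarith
    have a3 := cut_mem η (Yc ω z t)
    have a4 := mul_le_mul_of_nonneg_left a2 a3.1
    have a5 := mul_le_of_le_one_left hd a3.2
    linarith
  · intro ω'
    generalize spl 0 0 ω' = ω
    refine ENNReal.ofReal_le_ofReal ?_
    rw [val_cut, Kval]
    obtain ⟨b1, b2⟩ := hM (σ ω) ω
    have b3 := mul_nonneg hD0 (hψ0 _ (Up_nonneg (ω := ω) (z := z) (t := σ ω)))
    have b4 := hs01 (Yc ω z (σ ω))
    have b5 := mul_le_of_le_one_left b1 b4.2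
    have b6 : 0 ≤ slow θ z.im (Yc ω z (σ ω)) * (e * B) := mul_nonneg b4.1 (by positivity)
    have a3 := cut_mem η (Yc ω z (σ ω))
    have b7 : slow θ z.im (Yc ω z (σ ω)) * ((jM κ y z).val (σ ω) ω - e * B) - D * ψ (Up ω z (σ ω)) ≤
        Gr κ ω z (σ ω) := by linarith
    have b8 := mul_le_mul_of_nonneg_left b7 a3.1
    have b9 := mul_le_of_le_one_left (b1.trans b2) a3.2
    linarith

/-- `dynkin_ge` for `cut η (Y) · (φ(Y) (M - e B) - D θ B ψ(Υ))`, `B = y^(-b)`, `φ v = st (1 + θ log (v / Im z))` (slow cut-off,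
`0 ≤ v φ' ≤ L θ`, zero for `v ≤ 2 η`), `ψ v = 2 log (1 + v/y)` (`v ψ' ≥ 1` for `v ≥ y`), `M ≤ B (e + C_e S²) 1_{Υ > y}`.
Then `θ → 0`, `e → 0`. -/
theorem sub_ge (hκ : 0 < κ) (hκ8 : κ < 8) (hμ : Wie κ μ) {y : ℝ} (hy : 0 < y) {z : ℂ} (h3 : 3 * y ≤ z.im)
    {σ : Path → ℝ} {T : ℝ} (hσ : Stop σ) (hT : ∀ ω, σ ω ≤ T) :
    ENNReal.ofReal (V0 κ (aa κ) z) ≤ ∫⁻ ω, (ENNReal.ofReal (Gr κ ω z (σ ω)) +
      ∫⁻ t in Ioc 0 (σ ω), ENNReal.ofReal (densF κ y ω z t)) ∂μ := by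
  obtain ⟨L, hL0, hL⟩ := exists_st_bound
  have hB0 : 0 < y ^ (-bb κ) := Real.rpow_pos_of_pos hy _
  refine ENNReal.le_of_forall_pos_le_add fun ε hε _ => ?_
  have hε' : (0 : ℝ) < ε := hε
  obtain ⟨C, hC, hS⟩ := rpow_le_small (aa_pos hκ hκ8) (e := ε / 2 / y ^ (-bb κ)) (by positivity)
  set W := L * C * y ^ (-bb κ) / 2 * (2 * Real.log (1 + z.im / y)) with hW
  have hW0 : 0 ≤ W := by
    have : 0 ≤ Real.log (1 + z.im / y) :=
      Real.log_nonneg (le_add_of_nonneg_right (div_nonneg (by linarith) hy.le))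
    positivity
  have h := sub_ge_aux hκ hκ8 hμ hy h3 hσ hT (e := ε / 2 / y ^ (-bb κ)) (θ := ε / 2 / (W + 1)) (by positivity) hC
    (by positivity) (fun u => ⟨(hL u).1, (hL u).2.1⟩) hS
  refine le_trans ?_ (add_le_add h le_rfl)
  rw [← ENNReal.ofReal_coe_nnreal]
  refine le_trans (ENNReal.ofReal_le_ofReal ?_) ENNReal.ofReal_add_le
  have e1 : ε / 2 / y ^ (-bb κ) * y ^ (-bb κ) = ε / 2 := by field_simp
  have e2 : L * (ε / 2 / (W + 1)) * C * y ^ (-bb κ) / 2 * (2 * Real.log (1 + z.im / y)) =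
      ε / 2 * (W / (W + 1)) := by rw [hW]; ring
  have e3 : W / (W + 1) ≤ 1 := (div_le_one (by positivity)).2 (by linarith)
  have e4 : ε / 2 * (W / (W + 1)) ≤ ε / 2 := mul_le_of_le_one_right (by positivity) e3
  rw [e1, e2]
  linarith

end Crest.Agent.R162.O
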