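import Crest.Agent.R162.O.Pt
import Crest.Agent.R162.W

/-! Row 162, block O: the point supermartingale lemma. -/

set_option autoImplicit false

open scoped ENNReal NNReal Topology
open Set Filter MeasureTheory Metric

noncomputable section
namespace Crest.Agent.R162.O

variable {κ : ℝ} {μ : Measure Path} {z : ℂ} {K : Jet ℝ} {τ : Path → ℝ} {ω : Path} {s T : ℝ}

theorem measurableSet_al (z : ℂ) : MeasurableSet {p : ℝ × Path | Alive p.2 z p.1} :=
  (show Measurable fun p : ℝ × Path => ((p.2, z, p.1) : Path × ℂ × ℝ) by fun_prop) measurableSet_alive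

theorem meas_ind {f : ℝ → ℝ → Path → ℝ} (hf : ∀ t x ω, Alive ω z t → CtsAt f t x ω) :
    Measurable ({p : ℝ × Path | Alive p.2 z p.1}.indicator fun p => f p.1 (p.2 p.1) p.2) := by
  classical
  rw [← piecewise_eq_indicator]
  refine ContinuousOn.measurable_piecewise (fun p hp => ?_) continuousOn_const (measurableSet_al z)
  have hc : Continuous fun p : ℝ × Path => ((p.1, p.2 p.1, p.2) : ℝ × ℝ × Path) := by fun_prop
  exact ContinuousWithinAt.comp (f := fun p : ℝ × Path => ((p.1, p.2 p.1, p.2) : ℝ × ℝ × Path))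
    (hf p.1 (p.2 p.1) p.2 hp) hc.continuousWithinAt fun q hq => ⟨hq.1, mem_univ _⟩

theorem meas_int {H : ℝ × Path → ℝ≥0∞} (hH : Measurable H) (hτ : Measurable τ) (s : ℝ) :
    Measurable fun ω₁ => ∫⁻ t in Ioc s (τ ω₁), H (t, ω₁) := by
  have hS : MeasurableSet {q : Path × ℝ | q.2 ∈ Ioc s (τ q.1)} :=
    (measurableSet_lt measurable_const measurable_snd).inter
      (measurableSet_le measurable_snd (hτ.comp measurable_fst))
  have h1 : Measurable ({q : Path × ℝ | q.2 ∈ Ioc s (τ q.1)}.indicator fun q => H (q.2, q.1)) :=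
    (hH.comp (by fun_prop)).indicator hS
  have h2 := h1.lintegral_prod_right' (ν := volume)
  convert h2 using 2 with ω₁
  rw [← lintegral_indicator measurableSet_Ioc]
  rfl

theorem measurable_Yc' (z : ℂ) : Measurable fun p : ℝ × Path => Yc p.2 z p.1 :=
  Complex.measurable_im.comp
    (measurable_gt.comp (show Measurable fun p : ℝ × Path => ((p.2, z, p.1) : Path × ℂ × ℝ) by fun_prop))

theorem measurable_spl (s : ℝ) (ω : Path) : Measurable (spl s ω) :=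
  (continuous_spl.comp (show Continuous fun ω' : Path => ((s, ω, ω') : ℝ × Path × Path) by fun_prop)).measurable

/-- generator of the jet cut off in `Y` -/
theorem gen_cut {η t : ℝ} : ((jfY (cut η) z).mul K).gen κ t ω =
    deriv (cut η) (Yc ω z t) * (-2 * Yc ω z t / ‖Zc ω z t‖ ^ 2) * K.val t ω + cut η (Yc ω z t) * K.gen κ t ω :=
  gen_fv_mul _ _

theorem val_cut {η t : ℝ} : ((jfY (cut η) z).mul K).val t ω = cut η (Yc ω z t) * K.val t ω := rfl

theorem cut_dead {η t : ℝ} (hη : 0 < η) (h : ¬Alive ω z t) :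
    cut η (Yc ω z t) = 0 ∧ deriv (cut η) (Yc ω z t) = 0 :=
  cut_eq_zero hη (by rw [(dead h).2.1]; exact hη.le)

theorem After.le' (hτ : After τ ω s T) {ω₁ : Path} (ha : Agr s ω ω₁) : s ≤ τ ω₁ := by
  have := hτ.le (sh s ω₁)
  rwa [← spl_of_agr ha, spl_sh] at this

/-- Point supermartingale with a running gain.  `dynkin_le` for `(jfY (cut η) z).mul K` (`PJ.ok`, `gen_fv_mul`), then
`η = 1/(n+1) → 0` by monotone convergence; `1_{alive} K.val` and `1_{alive} K.gen` are measurable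
(`ContinuousOn.measurable_piecewise`). -/
theorem pt_super (hκ : 0 < κ) (hμ : Wie κ μ) (hK : PJ K z) (hτ : After τ ω s T) {F : Path → ℝ} {h : ℝ → Path → ℝ}
    {v : ℝ} (hv : ∀ ω₁, Agr s ω ω₁ → ∀ t ∈ Icc s (τ ω₁), Alive ω₁ z t → 0 ≤ K.val t ω₁)
    (hg : ∀ ω₁, Agr s ω ω₁ → ∀ t ∈ Ioo s (τ ω₁), Alive ω₁ z t → K.gen κ t ω₁ ≤ 0 ∧ h t ω₁ ≤ -K.gen κ t ω₁)
    (hg' : ∀ ω₁, Agr s ω ω₁ → ∀ t ∈ Ioo s (τ ω₁), ¬Alive ω₁ z t → h t ω₁ ≤ 0)
    (hF : ∀ ω₁, Agr s ω ω₁ → Alive ω₁ z (τ ω₁) → F ω₁ ≤ K.val (τ ω₁) ω₁)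
    (hF' : ∀ ω₁, Agr s ω ω₁ → ¬Alive ω₁ z (τ ω₁) → F ω₁ ≤ 0)
    (h0 : Alive ω z s → K.val s ω ≤ v) :
    EE μ ω s (fun ω₁ => ENNReal.ofReal (F ω₁) + ∫⁻ t in Ioc s (τ ω₁), ENNReal.ofReal (h t ω₁)) ≤
      ENNReal.ofReal v := by
  set A : Set (ℝ × Path) := {p | Alive p.2 z p.1} with hA
  set vA : ℝ × Path → ℝ := A.indicator fun p => K.val p.1 p.2 with hvA
  set gA : ℝ × Path → ℝ := A.indicator fun p => K.gen κ p.1 p.2 with hgA
  have mv : Measurable vA := meas_ind fun t x ω h => (hK.loc t x ω h).cf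
  have mg : Measurable gA := by
    have h1 := meas_ind fun t x ω h => (hK.loc t x ω h).cs
    have h2 := meas_ind fun t x ω h => (hK.loc t x ω h).cxx
    convert h1.add (h2.const_mul (κ / 2)) using 1
    ext p
    by_cases hp : p ∈ A
    · simp only [hgA, Pi.add_apply, indicator_of_mem hp, Jet.gen, smul_eq_mul, ← hA]
    · simp only [hgA, Pi.add_apply, indicator_of_notMem hp, ← hA, mul_zero, add_zero]
  have hη : ∀ n : ℕ, (0 : ℝ) < 1 / (n + 1) := fun n => Nat.one_div_pos_of_nat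
  set c : ℕ → ℝ × Path → ℝ≥0∞ := fun n p => ENNReal.ofReal (cut (1 / (n + 1)) (Yc p.2 z p.1)) with hc
  have mc : ∀ n, Measurable (c n) := fun n =>
    ((contDiff_cut _).continuous.measurable.comp (measurable_Yc' z)).ennreal_ofReal
  have cmono : ∀ p, Monotone fun n => c n p := fun p m n hmn =>
    ENNReal.ofReal_le_ofReal (cut_anti (hη n) (Nat.one_div_le_one_div hmn) Yc_nonneg)
  have cone : ∀ p ∈ A, ∀ a : ℝ≥0∞, a ≤ ⨆ n, c n p * a := by
    intro p hp a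
    have hY : 0 < Yc p.2 z p.1 := alive_iff.1 hp
    obtain ⟨n, hn⟩ := exists_nat_one_div_lt (half_pos hY)
    refine le_iSup_of_le n ?_
    simp only [hc]
    rw [cut_eq_one (hη n) (by linarith)]
    simp
  set Gn : ℕ → Path → ℝ≥0∞ := fun n ω₁ => c n (τ ω₁, ω₁) * ENNReal.ofReal (vA (τ ω₁, ω₁)) +
    ∫⁻ t in Ioc s (τ ω₁), c n (t, ω₁) * ENNReal.ofReal (-gA (t, ω₁)) with hGn
  have mτ : Measurable fun ω₁ => (τ ω₁, ω₁) := hτ.stop.meas.prodMk measurable_id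
  have mG : ∀ n, Measurable (Gn n) := fun n =>
    (((mc n).mul mv.ennreal_ofReal).comp mτ).add
      (meas_int (H := fun p => c n p * ENNReal.ofReal (-gA p)) ((mc n).mul mg.neg.ennreal_ofReal) hτ.stop.meas s)
  have m1 : ∀ ω₁, Monotone fun n => c n (τ ω₁, ω₁) * ENNReal.ofReal (vA (τ ω₁, ω₁)) := fun ω₁ m n hmn =>
    mul_le_mul_left (cmono _ hmn) _
  have m2 : ∀ ω₁, Monotone fun n => fun t => c n (t, ω₁) * ENNReal.ofReal (-gA (t, ω₁)) := fun ω₁ m n hmn t =>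
    mul_le_mul_left (cmono _ hmn) _
  have m3 : ∀ ω₁, Monotone fun n => ∫⁻ t in Ioc s (τ ω₁), c n (t, ω₁) * ENNReal.ofReal (-gA (t, ω₁)) :=
    fun ω₁ m n hmn => lintegral_mono (m2 ω₁ hmn)
  have hn : ∀ n, EE μ ω s (Gn n) ≤ ENNReal.ofReal v := by
    intro n
    refine (dynkin_le hκ hμ (hK.ok (hη n) T) hτ hτ.nonneg
      (F := fun ω₁ => c n (τ ω₁, ω₁) * ENNReal.ofReal (vA (τ ω₁, ω₁)))
      (h := fun t ω₁ => c n (t, ω₁) * ENNReal.ofReal (-gA (t, ω₁))) ?_ ?_).trans ?_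
    · intro ω' t ht
      have ha := agr_spl s ω ω'
      rw [gen_cut]
      by_cases hal : Alive (spl s ω ω') z t
      · have h1 := hv _ ha t (Ioo_subset_Icc_self ht) hal
        have h2 := (hg _ ha t ht hal).1
        have h3 := (cut_mem (1 / (n + 1)) (Yc (spl s ω ω') z t)).1
        have h4 := deriv_cut_nonneg (hη n) (Yc (spl s ω ω') z t)
        have h5 : -2 * Yc (spl s ω ω') z t / ‖Zc (spl s ω ω') z t‖ ^ 2 ≤ 0 :=
          div_nonpos_of_nonpos_of_nonneg (by linarith [Yc_nonneg (ω := spl s ω ω') (z := z) (t := t)]) (sq_nonneg _)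
        have h6 := mul_nonpos_of_nonpos_of_nonneg (mul_nonpos_of_nonneg_of_nonpos h4 h5) h1
        have h7 := mul_nonpos_of_nonneg_of_nonpos h3 h2
        refine ⟨by linarith, ?_⟩
        simp only [hc, hgA]
        rw [indicator_of_mem (show (t, spl s ω ω') ∈ A from hal), ← ENNReal.ofReal_mul h3]
        exact ENNReal.ofReal_le_ofReal (by simp only; linarith)
      · obtain ⟨h1, h2⟩ := cut_dead (hη n) hal
        simp only [hc, h1, h2]
        simp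
    · intro ω'
      have ha := agr_spl s ω ω'
      rw [val_cut]
      have h3 := (cut_mem (1 / (n + 1)) (Yc (spl s ω ω') z (τ (spl s ω ω')))).1
      by_cases hal : Alive (spl s ω ω') z (τ (spl s ω ω'))
      · refine ⟨mul_nonneg h3 (hv _ ha _ ⟨hτ.le ω', le_rfl⟩ hal), ?_⟩
        simp only [hc, hvA]
        rw [indicator_of_mem (show (τ (spl s ω ω'), spl s ω ω') ∈ A from hal), ← ENNReal.ofReal_mul h3]
      · obtain ⟨h1, -⟩ := cut_dead (hη n) hal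
        simp only [hc, h1]
        simp
    · rw [val_cut]
      by_cases hal : Alive ω z s
      · have h1 := hv ω (fun _ _ => rfl) s ⟨le_rfl, After.le' hτ fun _ _ => rfl⟩ hal
        exact ENNReal.ofReal_le_ofReal
          ((mul_le_of_le_one_left h1 (cut_mem _ _).2).trans (h0 hal))
      · rw [(cut_dead (hη n) hal).1]
        simp
  have hpt : ∀ ω₁, Agr s ω ω₁ →
      ENNReal.ofReal (F ω₁) + ∫⁻ t in Ioc s (τ ω₁), ENNReal.ofReal (h t ω₁) ≤ ⨆ n, Gn n ω₁ := by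
    intro ω₁ ha
    simp only [hGn]
    rw [← ENNReal.iSup_add_iSup_of_monotone (m1 ω₁) (m3 ω₁), ← lintegral_iSup
      (f := fun n t => c n (t, ω₁) * ENNReal.ofReal (-gA (t, ω₁))) (fun n =>
      ((mc n).mul mg.neg.ennreal_ofReal).comp (show Measurable fun t : ℝ => (t, ω₁) by fun_prop)) (m2 ω₁)]
    refine add_le_add ?_ ?_
    · by_cases hal : Alive ω₁ z (τ ω₁)
      · refine le_trans ?_ (cone (τ ω₁, ω₁) hal _)
        simp only [hvA]
        rw [indicator_of_mem (show (τ ω₁, ω₁) ∈ A from hal)]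
        exact ENNReal.ofReal_le_ofReal (hF ω₁ ha hal)
      · rw [ENNReal.ofReal_of_nonpos (hF' ω₁ ha hal)]
        exact zero_le
    · rw [← setLIntegral_congr Ioo_ae_eq_Ioc, ← setLIntegral_congr Ioo_ae_eq_Ioc]
      refine setLIntegral_mono' measurableSet_Ioo fun t ht => ?_
      by_cases hal : Alive ω₁ z t
      · refine le_trans ?_ (cone (t, ω₁) hal _)
        simp only [hgA]
        rw [indicator_of_mem (show (t, ω₁) ∈ A from hal)]
        exact ENNReal.ofReal_le_ofReal (hg ω₁ ha t ht hal).2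
      · rw [ENNReal.ofReal_of_nonpos (hg' ω₁ ha t ht hal)]
        exact zero_le
  calc _ ≤ ∫⁻ ω', ⨆ n, Gn n (spl s ω ω') ∂μ := lintegral_mono fun ω' => hpt _ (agr_spl s ω ω')
    _ = ⨆ n, EE μ ω s (Gn n) := lintegral_iSup (fun n => (mG n).comp (measurable_spl s ω))
        fun m n hmn ω' => add_le_add (m1 _ hmn) (m3 _ hmn)
    _ ≤ _ := iSup_le hn

/-- without gain -/
theorem pt_super_val (hκ : 0 < κ) (hμ : Wie κ μ) (hK : PJ K z) (hτ : After τ ω s T) {F : Path → ℝ}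
    {v : ℝ} (hv : ∀ ω₁, Agr s ω ω₁ → ∀ t ∈ Icc s (τ ω₁), Alive ω₁ z t → 0 ≤ K.val t ω₁)
    (hg : ∀ ω₁, Agr s ω ω₁ → ∀ t ∈ Ioo s (τ ω₁), Alive ω₁ z t → K.gen κ t ω₁ ≤ 0)
    (hF : ∀ ω₁, Agr s ω ω₁ → Alive ω₁ z (τ ω₁) → F ω₁ ≤ K.val (τ ω₁) ω₁)
    (hF' : ∀ ω₁, Agr s ω ω₁ → ¬Alive ω₁ z (τ ω₁) → F ω₁ ≤ 0)
    (h0 : Alive ω z s → K.val s ω ≤ v) :
    EE μ ω s (fun ω₁ => ENNReal.ofReal (F ω₁)) ≤ ENNReal.ofReal v := by
  refine le_trans ?_ (pt_super hκ hμ hK hτ (h := fun _ _ => 0) hv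
    (fun ω₁ ha t ht hal => ⟨hg ω₁ ha t ht hal, neg_nonneg.2 (hg ω₁ ha t ht hal)⟩) (fun _ _ _ _ _ => le_rfl) hF hF' h0)
  exact lintegral_mono fun _ => le_self_add

/-- only the gain -/
theorem pt_super_gain (hκ : 0 < κ) (hμ : Wie κ μ) (hK : PJ K z) (hτ : After τ ω s T) {h : ℝ → Path → ℝ}
    {v : ℝ} (hv : ∀ ω₁, Agr s ω ω₁ → ∀ t ∈ Icc s (τ ω₁), Alive ω₁ z t → 0 ≤ K.val t ω₁)
    (hg : ∀ ω₁, Agr s ω ω₁ → ∀ t ∈ Ioo s (τ ω₁), Alive ω₁ z t → K.gen κ t ω₁ ≤ 0 ∧ h t ω₁ ≤ -K.gen κ t ω₁)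
    (hg' : ∀ ω₁, Agr s ω ω₁ → ∀ t ∈ Ioo s (τ ω₁), ¬Alive ω₁ z t → h t ω₁ ≤ 0)
    (h0 : Alive ω z s → K.val s ω ≤ v) :
    EE μ ω s (fun ω₁ => ∫⁻ t in Ioc s (τ ω₁), ENNReal.ofReal (h t ω₁)) ≤ ENNReal.ofReal v := by
  have hle : ∀ ω₁, Agr s ω ω₁ → s ≤ τ ω₁ := fun ω₁ ha => by
    have := hτ.le (sh s ω₁)
    rwa [← spl_of_agr ha, spl_sh] at this
  refine le_trans ?_ (pt_super hκ hμ hK hτ (F := fun _ => 0) hv hg hg'
    (fun ω₁ ha hal => hv ω₁ ha _ ⟨hle ω₁ ha, le_rfl⟩ hal) (fun _ _ _ => le_rfl) h0)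
  exact lintegral_mono fun _ => le_add_self

end Crest.Agent.R162.O
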