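import Crest.Agent.R162.O.Sup

/-! Row 162, block O: O0 and O1. -/

set_option autoImplicit false

open scoped ENNReal NNReal Topology
open Set Filter MeasureTheory Metric

noncomputable section
namespace Crest.Agent.R162.O

variable {κ : ℝ} {μ : Measure Path}

/-- the full killing rate of `G · st (log (Υ / y))` -/
def densF (κ y : ℝ) (ω : Path) (z : ℂ) (t : ℝ) : ℝ :=
  4 * deriv Real.smoothTransition (Real.log (Up ω z t / y)) * Gr κ ω z t * Sc ω z t ^ 2 / ‖Zc ω z t‖ ^ 2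

/-- the jet of `G · st (log (Υ / y))` -/
def jM (κ y : ℝ) (z : ℂ) : Jet ℝ := jV κ (aa κ) (fun v => Real.smoothTransition (Real.log (v / y))) (fun _ => 1) z

theorem pj_M (hκ : 0 < κ) (hκ8 : κ < 8) {y : ℝ} (hy : 0 < y) (z : ℂ) : PJ (jM κ y z) z := by
  refine pj_V (aa_pos hκ hκ8).le (fun v hv => ContDiffAt.contDiffWithinAt ?_) contDiffOn_const
  exact (Real.smoothTransition.contDiffAt (n := 1)).comp v ((contDiffAt_id.div_const y).log (div_pos hv hy).ne')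

theorem jM_val (y : ℝ) (z : ℂ) (t : ℝ) (ω : Path) :
    (jM κ y z).val t ω = Real.smoothTransition (Real.log (Up ω z t / y)) * Gr κ ω z t := by
  rw [jM, jV_val, mul_one, Gr]

theorem jM_gen (hκ : 0 < κ) {y : ℝ} (hy : 0 < y) {z : ℂ} {t : ℝ} {ω : Path} (h : Alive ω z t) :
    (jM κ y z).gen κ t ω = -densF κ y ω z t := by
  have hU := h.up_pos
  have h1 : HasDerivAt (fun w => Real.log (w / y)) (1 / y / (Up ω z t / y)) (Up ω z t) :=
    ((hasDerivAt_id _).div_const y).log (div_pos hU hy).ne'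
  have h2 := ((Real.smoothTransition.contDiff (n := 1)).differentiable one_ne_zero
    (Real.log (Up ω z t / y))).hasDerivAt.comp (Up ω z t) h1
  have h3 : deriv (fun v => Real.smoothTransition (Real.log (v / y))) (Up ω z t) = _ := h2.deriv
  have h4 : Up ω z t * deriv (fun v => Real.smoothTransition (Real.log (v / y))) (Up ω z t) =
      deriv Real.smoothTransition (Real.log (Up ω z t / y)) := by
    rw [h3]
    field_simp
  rw [jM, jV_gen hκ h, h4, densF, Gr]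
  simp only [deriv_const', sub_self]
  ring

theorem densF_nonneg (y : ℝ) (ω : Path) (z : ℂ) (t : ℝ) : 0 ≤ densF κ y ω z t := by
  have h1 : 0 ≤ deriv Real.smoothTransition (Real.log (Up ω z t / y)) := Real.smoothTransition.monotone.deriv_nonneg
  have h2 : 0 ≤ Gr κ ω z t := Vg_nonneg _
  unfold densF
  positivity

theorem dens_le_densF (s₀ y : ℝ) (ω : Path) (z : ℂ) (t : ℝ) : dens κ s₀ y ω z t ≤ densF κ y ω z t := by
  have h := mul_le_of_le_one_right (densF_nonneg (κ := κ) y ω z t)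
    (Real.smoothTransition.le_one (Sc ω z t / s₀ - 1))
  refine le_trans (le_of_eq ?_) h
  rw [dens, densF]
  ring

/-- `pt_super_val` with `jV κ (aa κ) 1 1 z` -/
theorem green_super (hκ : 0 < κ) (hκ8 : κ < 8) (hμ : Wie κ μ) (z : ℂ) {τ : Path → ℝ} {ω : Path} {s T : ℝ}
    (hτ : After τ ω s T) :
    EE μ ω s (fun ω₁ => ENNReal.ofReal (Gr κ ω₁ z (τ ω₁))) ≤ ENNReal.ofReal (Gr κ ω z s) := by
  have hval : ∀ t ω, (jV κ (aa κ) (fun _ => 1) (fun _ => 1) z).val t ω = Gr κ ω z t := fun t ω => by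
    rw [jV_val, Gr]; ring
  refine pt_super_val hκ hμ (pj_V (κ := κ) (φ := fun _ => 1) (ψ := fun _ => 1) (aa_pos hκ hκ8).le
    contDiffOn_const contDiffOn_const) hτ (fun ω₁ _ t _ _ => ?_) (fun ω₁ _ t _ hal => ?_)
    (fun ω₁ _ _ => (hval _ _).ge) (fun ω₁ _ hal => (Vg_dead (aa_pos hκ hκ8) hal).le) fun _ => (hval _ _).le
  · rw [hval]
    exact Vg_nonneg _
  · rw [jV_gen hκ hal]
    simp

/-- `pt_super_gain` with `jM` and the constant time `s + n`; monotone convergence in `n` (`measurable_nz`) -/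
theorem nz_cond_le (hκ : 0 < κ) (hκ8 : κ < 8) (hμ : Wie κ μ) {s₀ y : ℝ} (hs₀ : 0 < s₀) (hy : 0 < y) (z : ℂ)
    (ω : Path) {s : ℝ} (hs : 0 ≤ s) :
    EE μ ω s (fun ω₁ => nz κ s₀ y ω₁ z (Ioi s)) ≤ ENNReal.ofReal (Gr κ ω z s) := by
  have hn : ∀ n : ℕ, EE μ ω s (fun ω₁ => nz κ s₀ y ω₁ z (Ioc s (s + n))) ≤ ENNReal.ofReal (Gr κ ω z s) := by
    intro n
    have hτ : After (fun _ => s + n) ω s (s + n) :=
      ⟨Stop.const (by positivity), hs, fun _ => le_add_of_nonneg_right n.cast_nonneg, fun _ => le_rfl⟩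
    refine pt_super_gain hκ hμ (pj_M hκ hκ8 hy z) hτ (h := fun t ω₁ => dens κ s₀ y ω₁ z t)
      (fun ω₁ _ t _ _ => ?_) (fun ω₁ _ t _ hal => ?_) (fun ω₁ _ t _ hal => ?_) fun _ => ?_
    · rw [jM_val]
      exact mul_nonneg (Real.smoothTransition.nonneg _) (Vg_nonneg _)
    · rw [jM_gen hκ hy hal, neg_neg]
      exact ⟨neg_nonpos.2 (densF_nonneg _ _ _ _), dens_le_densF _ _ _ _ _⟩
    · by_contra h
      exact hal (dens_supp hκ8 hy hs₀ (not_le.1 h).ne').1
    · rw [jM_val]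
      exact mul_le_of_le_one_left (Vg_nonneg _) (Real.smoothTransition.le_one _)
  have hmono : Monotone fun n : ℕ => Ioc s (s + n) := fun m n hmn =>
    Ioc_subset_Ioc_right (by gcongr)
  have hU : Ioi s = ⋃ n : ℕ, Ioc s (s + n) := by
    ext t
    simp only [mem_Ioi, mem_iUnion, mem_Ioc]
    refine ⟨fun h => ?_, fun ⟨_, h, _⟩ => h⟩
    obtain ⟨n, hn⟩ := exists_nat_ge (t - s)
    exact ⟨n, h, by linarith⟩
  have h1 : ∀ ω₁, nz κ s₀ y ω₁ z (Ioi s) = ⨆ n : ℕ, nz κ s₀ y ω₁ z (Ioc s (s + n)) := fun ω₁ => by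
    rw [nz, hU, setLIntegral_iUnion_of_directed _ hmono.directed_le]
    rfl
  simp only [EE, h1]
  rw [lintegral_iSup]
  · exact iSup_le hn
  · intro n
    exact measurable_nz.comp ((show Measurable fun ω₁ : Path => ((y, ω₁, z, s, s + n) : ℝ × Path × ℂ × ℝ × ℝ) by
      fun_prop).comp (measurable_spl s ω))
  · intro m n hmn ω'
    exact lintegral_mono_set (hmono hmn)

theorem nz_mean_le (hκ : 0 < κ) (hκ8 : κ < 8) (hμ : Wie κ μ) {s₀ y : ℝ} (hs₀ : 0 < s₀) (hy : 0 < y) {z : ℂ}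
    (hz : z ∈ HH) : ∫⁻ ω, nz κ s₀ y ω z (Ioi 0) ∂μ ≤ ENNReal.ofReal (z.im ^ (-bb κ)) := by
  have h := nz_cond_le hκ hκ8 hμ hs₀ hy z 0 le_rfl
  rw [hμ.EE_zero (fun _ _ => rfl)] at h
  refine h.trans (ENNReal.ofReal_le_ofReal ?_)
  rw [Gr, Vg_zero hz rfl]
  exact V0_le hz (aa_pos hκ hκ8).le

end Crest.Agent.R162.O
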